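import Mathlib

/-! The path lemma on a real array: trading whole clauses for block clauses. -/

namespace Vale.Agent.Lib.P170S

open Finset

/-- The sum of the one step gaps on the antidiagonal with index `L`. -/
noncomputable def gapSum (v : ℕ → ℕ → ℝ) (L : ℕ) : ℝ :=
  ∑ a ∈ range L, (v a (L - a - 1) - v a (L - a))

lemma antidiagonal_bound (v : ℕ → ℕ → ℝ) (η τ : ℝ)
    (h1 : ∀ a b, v a (b + 1) - η * (v a b - v a (b + 1)) - τ ≤ v (a + 1) b) (L : ℕ) :
    ∀ a, a ≤ L → v 0 L - η * (∑ i ∈ range a, (v i (L - i - 1) - v i (L - i))) - a * τ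
      ≤ v a (L - a) := by
  intro a
  induction a with
  | zero => intro _; simp
  | succ a ih =>
    intro ha
    have h2 := ih (by omega)
    have h3 := h1 a (L - a - 1)
    have e1 : L - a - 1 + 1 = L - a := by omega
    rw [e1] at h3
    have e2 : L - (a + 1) = L - a - 1 := by omega
    rw [e2, Finset.sum_range_succ]
    push_cast
    nlinarith

lemma gapSum_total (v : ℕ → ℕ → ℝ) (M : ℕ) :
    ∑ L ∈ range M, gapSum v L = ∑ a ∈ range M, (v a 0 - v a (M - a - 1)) := by
  induction M with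
  | zero => simp
  | succ M ih =>
    rw [Finset.sum_range_succ, ih, Finset.sum_range_succ]
    have e : M + 1 - M - 1 = 0 := by omega
    rw [e, sub_self, add_zero]
    unfold gapSum
    rw [← Finset.sum_add_distrib]
    refine Finset.sum_congr rfl fun a ha => ?_
    have ha' := Finset.mem_range.mp ha
    have e2 : M + 1 - a - 1 = M - a := by omega
    rw [e2]
    ring

/-- The path lemma.  `v a b` is a survival probability with `a` whole and `b` block clauses. -/
theorem path_lemma (v : ℕ → ℕ → ℝ) (η τ : ℝ) (hη : 0 ≤ η) (hτ : 0 ≤ τ)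
    (h1 : ∀ a b, v a (b + 1) - η * (v a b - v a (b + 1)) - τ ≤ v (a + 1) b)
    (h01 : ∀ a b, 0 ≤ v a b ∧ v a b ≤ 1)
    (hb : ∀ a b b', b ≤ b' → v a b' ≤ v a b)
    (ha : ∀ a a' b, a ≤ a' → v a' b ≤ v a b)
    (m w : ℕ) (hw : 0 < w) :
    v 0 (m + w) - η * ((m + w : ℕ) : ℝ) / w - ((m + w : ℕ) : ℝ) * τ ≤ v m 0 := by
  set M := m + w with hM
  have hw' : (0:ℝ) < w := by exact_mod_cast hw
  have hgap : ∀ L, 0 ≤ gapSum v L := by
    intro L
    unfold gapSum
    refine Finset.sum_nonneg fun a _ => ?_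
    have := hb a (L - a - 1) (L - a) (by omega)
    linarith
  -- each `L ∈ [m, M)`
  have hL : ∀ L ∈ Ico m M, v 0 M - η * gapSum v L - M * τ ≤ v m 0 := by
    intro L hL'
    have hL1 := Finset.mem_Ico.mp hL'
    have h2 := antidiagonal_bound v η τ h1 L L le_rfl
    rw [Nat.sub_self] at h2
    have h3 : v L 0 ≤ v m 0 := ha m L 0 hL1.1
    have h4 : v 0 M ≤ v 0 L := hb 0 L M hL1.2.le
    have h5 : (L:ℝ) * τ ≤ M * τ := by
      apply mul_le_mul_of_nonneg_right _ hτ
      exact_mod_cast hL1.2.le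
    have h6 : η * (∑ i ∈ range L, (v i (L - i - 1) - v i (L - i))) = η * gapSum v L := rfl
    rw [h6] at h2
    linarith
  have hsum : ∑ L ∈ Ico m M, (v 0 M - η * gapSum v L - M * τ) ≤ ∑ _L ∈ Ico m M, v m 0 :=
    Finset.sum_le_sum hL
  rw [Finset.sum_sub_distrib, Finset.sum_sub_distrib, ← Finset.mul_sum] at hsum
  simp only [Finset.sum_const, Nat.card_Ico, nsmul_eq_mul] at hsum
  have e : M - m = w := by omega
  rw [e] at hsum
  have htotal : ∑ L ∈ Ico m M, gapSum v L ≤ M := by
    calc ∑ L ∈ Ico m M, gapSum v L ≤ ∑ L ∈ range M, gapSum v L := by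
          apply Finset.sum_le_sum_of_subset_of_nonneg
          · intro x hx
            exact Finset.mem_range.mpr (Finset.mem_Ico.mp hx).2
          · intro i _ _
            exact hgap i
      _ = ∑ a ∈ range M, (v a 0 - v a (M - a - 1)) := gapSum_total v M
      _ ≤ ∑ _a ∈ range M, (1:ℝ) := by
          refine Finset.sum_le_sum fun a _ => ?_
          have := (h01 a 0).2
          have := (h01 a (M - a - 1)).1
          linarith
      _ = M := by simp
  have h7 : η * ∑ L ∈ Ico m M, gapSum v L ≤ η * M := mul_le_mul_of_nonneg_left htotal hη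
  have h8 : (w:ℝ) * (v 0 M - η * M / w - M * τ) ≤ w * v m 0 := by
    have : (w:ℝ) * (v 0 M - η * M / w - M * τ) = w * v 0 M - η * M - w * (M * τ) := by
      field_simp
    rw [this]
    linarith
  exact le_of_mul_le_mul_left h8 hw'

end Vale.Agent.Lib.P170S
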