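import Vale.Agent.Lib.P170S.Mix

/-! Two blocks of variables: clauses inside a block, rectangles of assignments. -/

set_option linter.unusedSectionVars false

namespace Vale.Agent.Lib.P170S

open Finset
open Vale.Agent.Lib.P170

open Classical

variable {n₁ n₂ k : ℕ}

lemma op_def {α ι : Type*} [DecidableEq α] [Fintype ι] (sol : ι → Finset α) (g : Finset α → ℝ)
    (S : Finset α) : op sol g S = (∑ x, g (S ∩ sol x)) / (Fintype.card ι : ℝ) := rfl

/-- Restriction of an assignment to the first block. -/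
def res1 (a : Fin (n₁ + n₂) → Bool) : Fin n₁ → Bool := fun i => a (Fin.castAdd n₂ i)

/-- Restriction of an assignment to the second block. -/
def res2 (a : Fin (n₁ + n₂) → Bool) : Fin n₂ → Bool := fun i => a (Fin.natAdd n₁ i)

/-- The assignments of all variables satisfying a clause of the first block. -/
noncomputable def sol1 (n₂ : ℕ) (c : ProperClause n₁ k) : Finset (Fin (n₁ + n₂) → Bool) :=
  univ.filter (fun a => c.Holds (res1 a))

/-- The assignments of all variables satisfying a clause of the second block. -/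
noncomputable def sol2 (n₁ : ℕ) (c : ProperClause n₂ k) : Finset (Fin (n₁ + n₂) → Bool) :=
  univ.filter (fun a => c.Holds (res2 a))

/-- Rectangles of assignments. -/
noncomputable def rect (S₁ : Finset (Fin n₁ → Bool)) (S₂ : Finset (Fin n₂ → Bool)) :
    Finset (Fin (n₁ + n₂) → Bool) :=
  univ.filter (fun a => res1 a ∈ S₁ ∧ res2 a ∈ S₂)

lemma rect_univ : rect (univ : Finset (Fin n₁ → Bool)) (univ : Finset (Fin n₂ → Bool)) = univ := by
  ext a
  simp [rect]

lemma rect_inter_sol1 (S₁ : Finset (Fin n₁ → Bool)) (S₂ : Finset (Fin n₂ → Bool))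
    (c : ProperClause n₁ k) : rect S₁ S₂ ∩ sol1 n₂ c = rect (S₁ ∩ solSet c) S₂ := by
  ext a
  simp only [rect, sol1, solSet, Finset.mem_inter, Finset.mem_filter, Finset.mem_univ, true_and]
  tauto

lemma rect_inter_sol2 (S₁ : Finset (Fin n₁ → Bool)) (S₂ : Finset (Fin n₂ → Bool))
    (c : ProperClause n₂ k) : rect S₁ S₂ ∩ sol2 n₁ c = rect S₁ (S₂ ∩ solSet c) := by
  ext a
  simp only [rect, sol2, solSet, Finset.mem_inter, Finset.mem_filter, Finset.mem_univ, true_and]
  tauto

lemma res1_append (a₁ : Fin n₁ → Bool) (a₂ : Fin n₂ → Bool) : res1 (Fin.append a₁ a₂) = a₁ := by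
  funext i
  simp [res1]

lemma res2_append (a₁ : Fin n₁ → Bool) (a₂ : Fin n₂ → Bool) : res2 (Fin.append a₁ a₂) = a₂ := by
  funext i
  simp [res2]

lemma rect_nonemptyInd (S₁ : Finset (Fin n₁ → Bool)) (S₂ : Finset (Fin n₂ → Bool)) :
    nonemptyInd (rect S₁ S₂) = nonemptyInd S₁ * nonemptyInd S₂ := by
  unfold nonemptyInd
  by_cases h1 : S₁.Nonempty
  · by_cases h2 : S₂.Nonempty
    · have : (rect S₁ S₂).Nonempty := by
        obtain ⟨a₁, ha₁⟩ := h1
        obtain ⟨a₂, ha₂⟩ := h2
        refine ⟨Fin.append a₁ a₂, ?_⟩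
        simp [rect, res1_append, res2_append, ha₁, ha₂]
      simp [this, h1, h2]
    · have : ¬ (rect S₁ S₂).Nonempty := by
        rintro ⟨a, ha⟩
        exact h2 ⟨res2 a, (Finset.mem_filter.mp ha).2.2⟩
      simp [this, h2]
  · have : ¬ (rect S₁ S₂).Nonempty := by
      rintro ⟨a, ha⟩
      exact h1 ⟨res1 a, (Finset.mem_filter.mp ha).2.1⟩
    simp [this, h1]

lemma iter2_rect (l : ℕ) (S₁ : Finset (Fin n₁ → Bool)) (S₂ : Finset (Fin n₂ → Bool)) :
    (op (sol2 n₁ : ProperClause n₂ k → _))^[l] nonemptyInd (rect S₁ S₂)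
      = nonemptyInd S₁ * (op (solSet : ProperClause n₂ k → _))^[l] nonemptyInd S₂ := by
  induction l generalizing S₂ with
  | zero => simpa using rect_nonemptyInd S₁ S₂
  | succ l ih =>
    rw [Function.iterate_succ_apply', Function.iterate_succ_apply', op_def, op_def]
    rw [mul_div_assoc', Finset.mul_sum]
    congr 1
    refine Finset.sum_congr rfl fun c _ => ?_
    rw [rect_inter_sol2, ih]

lemma iter12_rect (j l : ℕ) (S₁ : Finset (Fin n₁ → Bool)) (S₂ : Finset (Fin n₂ → Bool)) :
    (op (sol1 n₂ : ProperClause n₁ k → _))^[j]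
        ((op (sol2 n₁ : ProperClause n₂ k → _))^[l] nonemptyInd) (rect S₁ S₂)
      = (op (solSet : ProperClause n₁ k → _))^[j] nonemptyInd S₁
        * (op (solSet : ProperClause n₂ k → _))^[l] nonemptyInd S₂ := by
  induction j generalizing S₁ with
  | zero => simpa using iter2_rect l S₁ S₂
  | succ j ih =>
    rw [Function.iterate_succ_apply', Function.iterate_succ_apply', op_def, op_def]
    rw [div_mul_eq_mul_div, Finset.sum_mul]
    congr 1
    refine Finset.sum_congr rfl fun c _ => ?_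
    rw [rect_inter_sol1, ih]

/-- The block mixture is a binomial sum of products of satisfiability probabilities. -/
theorem mix_univ_eq (hk₁ : k ≤ n₁) (hk₂ : k ≤ n₂) {p q : ℝ} (hp : 0 ≤ p) (hq : 0 ≤ q)
    (hpq : p + q = 1) (L : ℕ) :
    (mix p q (op (sol1 n₂ : ProperClause n₁ k → _)) (op (sol2 n₁ : ProperClause n₂ k → _)))^[L]
        nonemptyInd univ
      = ∑ j ∈ range (L + 1), (L.choose j : ℝ) * (p ^ j * q ^ (L - j))
          * (satProb k n₁ j * satProb k n₂ (L - j)) := by
  rw [mix_iterate_eq (op_isMk _ (card_clause_pos hk₁)) (op_isMk _ (card_clause_pos hk₂))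
    (op_comm _ _) hp hq hpq]
  refine Finset.sum_congr rfl fun j _ => ?_
  congr 1
  rw [← rect_univ, iter12_rect, satProb_eq, satProb_eq]

end Vale.Agent.Lib.P170S
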