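import Vale.Agent.Lib.P170S.Mono

/-! Convergence along one sequence with bounded ratios forces convergence. -/

set_option linter.unusedSectionVars false

namespace Vale.Agent.Lib.P170S

open Finset Filter Topology
open Vale.Agent.Lib.P170

open Classical

variable {k : ℕ}

/-- Convergence along a sequence with bounded ratios gives convergence. -/
theorem converges_of_subseq (hk : 2 ≤ k) {r : ℕ → ℝ} (hr : IsThresholdSeq k r) {s : ℕ → ℕ} {C : ℕ}
    {ρ : ℝ} (hs : Tendsto s atTop atTop) (hC : ∀ j, s (j + 1) ≤ C * s j)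
    (hlim : Tendsto (fun j => r (s j)) atTop (𝓝 ρ)) : Tendsto r atTop (𝓝 ρ) := by
  rw [Metric.tendsto_atTop]
  intro ε hε
  have hε3 : 0 < ε / 3 := by positivity
  obtain ⟨Λ, hΛ0, hΛ⟩ := asymptotic_mono hk hr hε3
  obtain ⟨n₁, hn₁⟩ := hΛ (Λ * C)
  obtain ⟨j₀, hj₀⟩ := Metric.tendsto_atTop.mp hlim (ε / 3) hε3
  obtain ⟨j₁, hj₁⟩ := eventually_atTop.mp (hs.eventually (eventually_ge_atTop n₁))
  set j₂ := max j₀ j₁ with hj₂
  -- the index set is finite
  have hfin : ∀ M : ℕ, ∃ J, ∀ j, J ≤ j → M < s j := by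
    intro M
    exact eventually_atTop.mp (hs.eventually (eventually_gt_atTop M))
  obtain ⟨J, hJ⟩ := hfin (Λ * C * n₁ + Λ * s 0 + Λ * s j₂ + n₁)
  have hJsup : ∀ j ≤ J, s j ≤ (range (J + 1)).sup s :=
    fun j hj => Finset.le_sup (f := s) (Finset.mem_range.mpr (by omega))
  refine ⟨max (max (Λ * C * n₁ + 1) (Λ * s 0 + 1))
    (max (Λ * C * (range (j₂ + 1)).sup s + 1) n₁ + Λ * (range (j₂ + 1)).sup s + 1), ?_⟩
  intro N hN
  simp only [ge_iff_le, max_le_iff] at hN
  obtain ⟨⟨hN1, hN2⟩, hN3⟩ := hN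
  have hCpos : 0 < C := by
    by_contra h
    have hC0 : C = 0 := by omega
    rw [hC0] at hN1
    have h1 := hC (max j₁ 0)
    rw [hC0, zero_mul] at h1
    have h2 := hJ (J + 1 + j₁) (by omega)
    have h3 := hC (J + j₁)
    rw [hC0, zero_mul] at h3
    have e : J + 1 + j₁ = J + j₁ + 1 := by ring
    rw [e] at h2
    omega
  have hsup : ∀ j ≤ j₂, s j ≤ (range (j₂ + 1)).sup s :=
    fun j hj => Finset.le_sup (f := s) (Finset.mem_range.mpr (by omega))
  -- the lower bound: the last index with `Λ * s j ≤ N`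
  have hlow : ρ - 2 * (ε / 3) ≤ r N := by
    classical
    have hex : ∃ j, Λ * s j ≤ N := ⟨0, by omega⟩
    have hbd : ∀ j, Λ * s j ≤ N → j ≤ (hfin N).choose := by
      intro j hj
      by_contra hcon
      push Not at hcon
      have h1 := (hfin N).choose_spec j hcon.le
      have h2 : s j ≤ Λ * s j := Nat.le_mul_of_pos_left _ hΛ0
      omega
    set j := Nat.findGreatest (fun j => Λ * s j ≤ N) (hfin N).choose with hjdef
    obtain ⟨j', hj'⟩ := hex
    have hj1 : Λ * s j ≤ N := by
      exact Nat.findGreatest_spec (P := fun j => Λ * s j ≤ N) (hbd j' hj') hj'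
    have hj2 : N < Λ * s (j + 1) := by
      by_contra hcon
      push Not at hcon
      have h1 := hbd _ hcon
      have h2 := Nat.le_findGreatest (P := fun j => Λ * s j ≤ N) h1 hcon
      omega
    have hj3 : N ≤ Λ * C * s j := by
      have h1 : Λ * s (j + 1) ≤ Λ * (C * s j) := Nat.mul_le_mul_left _ (hC j)
      have e : Λ * (C * s j) = Λ * C * s j := by ring
      omega
    -- the index is large
    have hj4 : j₂ ≤ j := by
      by_contra hcon
      push Not at hcon
      have h1 := hsup j hcon.le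
      have h2 : Λ * C * s j ≤ Λ * C * (range (j₂ + 1)).sup s := Nat.mul_le_mul_left _ h1
      omega
    have h1 := hj₀ j (le_trans (le_max_left _ _) hj4)
    have h2 := hj₁ j (le_trans (le_max_right _ _) hj4)
    have h3 := hn₁ (s j) N h2 hj1 hj3
    rw [Real.dist_eq, abs_lt] at h1
    linarith [h1.1]
  -- the upper bound: the first index with `Λ * N ≤ s j`
  have hupp : r N ≤ ρ + 2 * (ε / 3) := by
    classical
    have hex : ∃ j, Λ * N ≤ s j := by
      obtain ⟨J', hJ'⟩ := hfin (Λ * N)
      exact ⟨J', (hJ' J' le_rfl).le⟩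
    set j := Nat.find hex with hjdef
    have hj1 : Λ * N ≤ s j := Nat.find_spec hex
    have hjpos : 0 < j := by
      by_contra hcon
      have hj0 : j = 0 := by omega
      rw [hj0] at hj1
      have h2 : N ≤ Λ * N := Nat.le_mul_of_pos_left _ hΛ0
      have h3 : Λ * s 0 ≤ s 0 * Λ := by rw [mul_comm]
      have h4 : s 0 ≤ Λ * s 0 := Nat.le_mul_of_pos_left _ hΛ0
      omega
    have hj2 : s (j - 1) < Λ * N := by
      have := Nat.find_min hex (m := j - 1) (by omega)
      omega
    have hj3 : s j ≤ Λ * C * N := by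
      have e : j - 1 + 1 = j := by omega
      have h1 := hC (j - 1)
      rw [e] at h1
      have h2 : C * s (j - 1) ≤ C * (Λ * N) := Nat.mul_le_mul_left _ hj2.le
      have e2 : C * (Λ * N) = Λ * C * N := by ring
      omega
    have hj4 : j₂ ≤ j := by
      by_contra hcon
      push Not at hcon
      have h1 := hsup j hcon.le
      have h2 : N ≤ Λ * N := Nat.le_mul_of_pos_left _ hΛ0
      have h5 : (range (j₂ + 1)).sup s ≤ Λ * (range (j₂ + 1)).sup s := Nat.le_mul_of_pos_left _ hΛ0
      omega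
    have hn1N : n₁ ≤ N := by omega
    have h1 := hj₀ j (le_trans (le_max_left _ _) hj4)
    have h3 := hn₁ N (s j) hn1N hj1 hj3
    rw [Real.dist_eq, abs_lt] at h1
    linarith [h1.2]
  rw [Real.dist_eq, abs_lt]
  constructor <;> linarith

end Vale.Agent.Lib.P170S
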