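import Vale.Agent.Lib.P170S.Kill

/-! The main inequality comparing `n₁ + n₂` variables with the two blocks. -/

set_option linter.unusedSectionVars false

namespace Vale.Agent.Lib.P170S

open Finset Filter Topology
open Vale.Agent.Lib.P170

open Classical

variable {n₁ n₂ k : ℕ}

lemma binom_sum_one {p q : ℝ} (hpq : p + q = 1) (L : ℕ) :
    ∑ j ∈ range (L + 1), (L.choose j : ℝ) * (p ^ j * q ^ (L - j)) = 1 := by
  have h := add_pow p q L
  rw [hpq, one_pow] at h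
  rw [h]
  refine Finset.sum_congr rfl fun j _ => ?_
  ring

lemma binom_var {p q : ℝ} (hpq : p + q = 1) (L : ℕ) :
    ∑ j ∈ range (L + 1), (L.choose j : ℝ) * (p ^ j * q ^ (L - j)) * ((j:ℝ) - L * p) ^ 2
      = L * p * q := by
  have h := bernsteinPolynomial.variance ℝ L
  have h2 := congrArg (Polynomial.eval p) h
  have hq : 1 - p = q := by linarith
  simp only [Polynomial.eval_finsetSum, Polynomial.eval_mul, Polynomial.eval_pow,
    Polynomial.eval_sub, Polynomial.eval_X, Polynomial.eval_natCast,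
    Polynomial.eval_one, bernsteinPolynomial, nsmul_eq_mul, hq] at h2
  rw [← h2]
  refine Finset.sum_congr rfl fun j _ => ?_
  ring

lemma etaB_nonneg (hk1 : 1 ≤ k) {B : ℕ} (hB : 2 * (k - 1) < B) : 0 ≤ etaB k B := by
  have hkr : ((k:ℝ) - 1) = ((k - 1 : ℕ) : ℝ) := by
    rw [Nat.cast_sub hk1]
    simp
  have hBr : 2 * ((k:ℝ) - 1) < B := by
    rw [hkr]
    exact_mod_cast hB
  have hk1r : (1:ℝ) ≤ k := by exact_mod_cast hk1
  have hB0 : (0:ℝ) < (B:ℝ) - 2 * ((k:ℝ) - 1) := by linarith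
  unfold etaB
  have h1 : (1:ℝ) ≤ (B:ℝ) / ((B:ℝ) - 2 * ((k:ℝ) - 1)) := by
    rw [one_le_div hB0]
    linarith
  have := one_le_pow₀ h1 (n := k)
  linarith

lemma tauB_nonneg (k B N : ℕ) : 0 ≤ tauB k B N := by
  unfold tauB
  positivity

/-- **The main inequality.**  Whole clauses on `n₁ + n₂` variables compared with the two blocks. -/
theorem main_ineq (hk1 : 1 ≤ k) (hk₁ : k ≤ n₁) (hk₂ : k ≤ n₂) {B : ℕ} (hB : 2 * (k - 1) < B)
    (m w m₁ m₂ : ℕ) (hw : 0 < w) {t : ℝ} (ht : 0 < t)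
    (h₁ : ((m + w : ℕ) : ℝ) * wt₁ n₁ n₂ + t ≤ m₁)
    (h₂ : ((m + w : ℕ) : ℝ) * wt₂ n₁ n₂ + t ≤ m₂) :
    (1 - ((m + w : ℕ) : ℝ) * (wt₁ n₁ n₂ * wt₂ n₁ n₂) / t ^ 2)
        * (satProb k n₁ m₁ * satProb k n₂ m₂)
      - etaB k B * ((m + w : ℕ) : ℝ) / w - ((m + w : ℕ) : ℝ) * tauB k B (n₁ + n₂)
      ≤ satProb k (n₁ + n₂) m := by
  have hn₁ : 0 < n₁ := by omega
  have hc₁ := card_clause_pos hk₁
  have hc₂ := card_clause_pos hk₂
  have hcN : 0 < Fintype.card (ProperClause (n₁ + n₂) k) := card_clause_pos (by omega)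
  have hw' := wt_add (n₁ := n₁) (n₂ := n₂) hn₁
  have hp : 0 ≤ wt₁ n₁ n₂ := by unfold wt₁; positivity
  have hq : 0 ≤ wt₂ n₁ n₂ := by unfold wt₂; positivity
  have hcmp := compare_main (solSet : ProperClause (n₁ + n₂) k → _)
    (sol1 n₂ : ProperClause n₁ k → _) (sol2 n₁ : ProperClause n₂ k → _) hcN hc₁ hc₂ hp hq hw'
    (etaB_nonneg hk1 hB) (tauB_nonneg k B (n₁ + n₂))
    (kill_compare hk1 hk₁ hk₂ hB) univ m w hw
  rw [mix_univ_eq hk₁ hk₂ hp hq hw', ← satProb_eq] at hcmp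
  set L := m + w with hL
  set p := wt₁ n₁ n₂ with hpdef
  set q := wt₂ n₁ n₂ with hqdef
  set A := satProb k n₁ m₁ * satProb k n₂ m₂ with hA
  have hA0 : 0 ≤ A := mul_nonneg (satProb_nonneg hk₁ _) (satProb_nonneg hk₂ _)
  have ht2 : 0 < t ^ 2 := by positivity
  have hterm : ∀ j ∈ range (L + 1),
      (L.choose j : ℝ) * (p ^ j * q ^ (L - j)) * ((1 - ((j:ℝ) - L * p) ^ 2 / t ^ 2) * A)
        ≤ (L.choose j : ℝ) * (p ^ j * q ^ (L - j)) * (satProb k n₁ j * satProb k n₂ (L - j)) := by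
    intro j hj
    have hjL : j ≤ L := Nat.lt_succ_iff.mp (Finset.mem_range.mp hj)
    apply mul_le_mul_of_nonneg_left _ (by positivity)
    by_cases hgood : ((j:ℝ) - L * p) ^ 2 ≤ t ^ 2
    · have habs := abs_le_of_sq_le_sq' hgood ht.le
      have hj1 : j ≤ m₁ := by
        have : (j:ℝ) ≤ m₁ := by linarith [habs.2]
        exact_mod_cast this
      have hj2 : L - j ≤ m₂ := by
        have e : ((L - j : ℕ) : ℝ) = (L:ℝ) - j := by
          rw [Nat.cast_sub hjL]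
        have hLq : (L:ℝ) * q = (L:ℝ) - L * p := by
          have : q = 1 - p := by linarith
          rw [this]
          ring
        have : ((L - j : ℕ) : ℝ) ≤ m₂ := by
          rw [e]
          linarith [habs.1]
        exact_mod_cast this
      have h3 : A ≤ satProb k n₁ j * satProb k n₂ (L - j) :=
        mul_le_mul (satProb_anti hk₁ hj1) (satProb_anti hk₂ hj2) (satProb_nonneg hk₂ _)
          (satProb_nonneg hk₁ _)
      have h4 : (1 - ((j:ℝ) - L * p) ^ 2 / t ^ 2) ≤ 1 := by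
        have : 0 ≤ ((j:ℝ) - L * p) ^ 2 / t ^ 2 := by positivity
        linarith
      nlinarith [mul_le_mul_of_nonneg_right h4 hA0]
    · push Not at hgood
      have h4 : (1 - ((j:ℝ) - L * p) ^ 2 / t ^ 2) ≤ 0 := by
        have : 1 ≤ ((j:ℝ) - L * p) ^ 2 / t ^ 2 := by
          rw [one_le_div ht2]
          exact hgood.le
        linarith
      have h5 : 0 ≤ satProb k n₁ j * satProb k n₂ (L - j) :=
        mul_nonneg (satProb_nonneg hk₁ _) (satProb_nonneg hk₂ _)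
      have h6 : (1 - ((j:ℝ) - L * p) ^ 2 / t ^ 2) * A ≤ 0 :=
        mul_nonpos_of_nonpos_of_nonneg h4 hA0
      linarith
  have hsum := Finset.sum_le_sum hterm
  have hexp : ∑ j ∈ range (L + 1),
      (L.choose j : ℝ) * (p ^ j * q ^ (L - j)) * ((1 - ((j:ℝ) - L * p) ^ 2 / t ^ 2) * A)
      = (1 - (L:ℝ) * (p * q) / t ^ 2) * A := by
    have h1 : ∀ j ∈ range (L + 1),
        (L.choose j : ℝ) * (p ^ j * q ^ (L - j)) * ((1 - ((j:ℝ) - L * p) ^ 2 / t ^ 2) * A)
        = A * ((L.choose j : ℝ) * (p ^ j * q ^ (L - j)))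
          - (A / t ^ 2) * ((L.choose j : ℝ) * (p ^ j * q ^ (L - j)) * ((j:ℝ) - L * p) ^ 2) := by
      intro j _
      field_simp
    rw [Finset.sum_congr rfl h1, Finset.sum_sub_distrib, ← Finset.mul_sum, ← Finset.mul_sum,
      binom_sum_one hw', binom_var hw']
    field_simp
  rw [hexp] at hsum
  linarith

end Vale.Agent.Lib.P170S
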