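import Vale.Agent.Lib.P170S.Block

/-! The one clause comparison: a whole clause kills no more often than a block clause. -/

set_option linter.unusedSectionVars false

namespace Vale.Agent.Lib.P170S

open Finset
open Vale.Agent.Lib.P170

open Classical

variable {n₁ n₂ k : ℕ}

lemma op_sol1_nonemptyInd (S : Finset (Fin (n₁ + n₂) → Bool)) :
    op (sol1 n₂ : ProperClause n₁ k → _) nonemptyInd S
      = op (solSet : ProperClause n₁ k → _) nonemptyInd (S.image res1) := by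
  rw [op_def, op_def]
  congr 1
  refine Finset.sum_congr rfl fun c _ => ?_
  unfold nonemptyInd
  have h : (S ∩ sol1 n₂ c).Nonempty ↔ (S.image res1 ∩ solSet c).Nonempty := by
    constructor
    · rintro ⟨a, ha⟩
      rw [Finset.mem_inter] at ha
      refine ⟨res1 a, Finset.mem_inter.mpr ⟨Finset.mem_image_of_mem _ ha.1, ?_⟩⟩
      simpa [sol1, solSet] using ha.2
    · rintro ⟨b, hb⟩
      rw [Finset.mem_inter, Finset.mem_image] at hb
      obtain ⟨⟨a, ha, rfl⟩, hc⟩ := hb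
      refine ⟨a, Finset.mem_inter.mpr ⟨ha, ?_⟩⟩
      simpa [sol1, solSet] using hc
  simp only [h]

lemma op_sol2_nonemptyInd (S : Finset (Fin (n₁ + n₂) → Bool)) :
    op (sol2 n₁ : ProperClause n₂ k → _) nonemptyInd S
      = op (solSet : ProperClause n₂ k → _) nonemptyInd (S.image res2) := by
  rw [op_def, op_def]
  congr 1
  refine Finset.sum_congr rfl fun c _ => ?_
  unfold nonemptyInd
  have h : (S ∩ sol2 n₁ c).Nonempty ↔ (S.image res2 ∩ solSet c).Nonempty := by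
    constructor
    · rintro ⟨a, ha⟩
      rw [Finset.mem_inter] at ha
      refine ⟨res2 a, Finset.mem_inter.mpr ⟨Finset.mem_image_of_mem _ ha.1, ?_⟩⟩
      simpa [sol2, solSet] using ha.2
    · rintro ⟨b, hb⟩
      rw [Finset.mem_inter, Finset.mem_image] at hb
      obtain ⟨⟨a, ha, rfl⟩, hc⟩ := hb
      refine ⟨a, Finset.mem_inter.mpr ⟨ha, ?_⟩⟩
      simpa [sol2, solSet] using hc
  simp only [h]

/-- Dead literals of a set of assignments split between the two blocks. -/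
lemma card_dead_le_add (S : Finset (Fin (n₁ + n₂) → Bool)) :
    (deadLits S).card ≤ (deadLits (S.image res1)).card + (deadLits (S.image res2)).card := by
  have hsub : deadLits S ⊆
      (deadLits (S.image res1)).image (fun l : Fin n₁ × Bool => (Fin.castAdd n₂ l.1, l.2))
      ∪ (deadLits (S.image res2)).image (fun l : Fin n₂ × Bool => (Fin.natAdd n₁ l.1, l.2)) := by
    rintro ⟨i, b⟩ hl
    rw [mem_deadLits] at hl
    rw [Finset.mem_union]
    induction i using Fin.addCases with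
    | left i =>
      left
      rw [Finset.mem_image]
      refine ⟨(i, b), ?_, rfl⟩
      rw [mem_deadLits]
      intro a' ha'
      rw [Finset.mem_image] at ha'
      obtain ⟨a, ha, rfl⟩ := ha'
      exact hl a ha
    | right i =>
      right
      rw [Finset.mem_image]
      refine ⟨(i, b), ?_, rfl⟩
      rw [mem_deadLits]
      intro a' ha'
      rw [Finset.mem_image] at ha'
      obtain ⟨a, ha, rfl⟩ := ha'
      exact hl a ha
  calc (deadLits S).card ≤ _ := Finset.card_le_card hsub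
    _ ≤ _ := Finset.card_union_le _ _
    _ ≤ _ := Nat.add_le_add Finset.card_image_le Finset.card_image_le

/-- Upper bound for a ratio of binomial coefficients. -/
lemma choose_ratio_le {M N : ℕ} (hM : M ≤ N) (hk : k ≤ N) :
    (M.choose k : ℝ) / (N.choose k : ℝ) ≤ ((M:ℝ) / N) ^ k := by
  have hC : (0:ℝ) < (N.choose k : ℝ) := by exact_mod_cast Nat.choose_pos hk
  by_cases hN : N = 0
  · subst hN
    have hM0 : M = 0 := by omega
    have hk0 : k = 0 := by omega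
    subst hM0
    subst hk0
    simp
  have hN' : (0:ℝ) < N := by exact_mod_cast Nat.pos_of_ne_zero hN
  have h := choose_mul_pow_le hM k
  have h' : (M.choose k : ℝ) * (N:ℝ) ^ k ≤ (N.choose k : ℝ) * (M:ℝ) ^ k := by exact_mod_cast h
  rw [div_pow, div_le_div_iff₀ hC (by positivity)]
  linarith

/-- Lower bound for a ratio of binomial coefficients. -/
lemma choose_ratio_ge (M : ℕ) {n : ℕ} (hk : k ≤ n) (hn : 0 < n) :
    (((M + 1 - k : ℕ) : ℝ) / n) ^ k ≤ (M.choose k : ℝ) / (n.choose k : ℝ) := by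
  have hC : (0:ℝ) < (n.choose k : ℝ) := by exact_mod_cast Nat.choose_pos hk
  have hn' : (0:ℝ) < n := by exact_mod_cast hn
  have h1 : ((M + 1 - k : ℕ) : ℝ) ^ k ≤ (k.factorial : ℝ) * (M.choose k : ℝ) := by
    have := Nat.pow_sub_le_descFactorial M k
    rw [Nat.descFactorial_eq_factorial_mul_choose] at this
    exact_mod_cast this
  have h2 : (k.factorial : ℝ) * (n.choose k : ℝ) ≤ (n:ℝ) ^ k := by
    have := Nat.descFactorial_le_pow n k
    rw [Nat.descFactorial_eq_factorial_mul_choose] at this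
    exact_mod_cast this
  rw [div_pow, div_le_div_iff₀ (by positivity) hC]
  have hM0 : (0:ℝ) ≤ (M.choose k : ℝ) := by positivity
  have hn0 : (0:ℝ) ≤ (n.choose k : ℝ) := by positivity
  nlinarith [mul_le_mul_of_nonneg_right h1 hn0, mul_le_mul_of_nonneg_left h2 hM0]

/-- The numerical form of the comparison. -/
lemma kill_numeric {M M₁ M₂ B : ℕ} (hk1 : 1 ≤ k) (hk₁ : k ≤ n₁) (hk₂ : k ≤ n₂)
    (hM : M ≤ M₁ + M₂) (hM' : M ≤ n₁ + n₂) (hB : 2 * (k - 1) < B) :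
    (M.choose k : ℝ) / ((n₁ + n₂).choose k : ℝ)
      ≤ ((B:ℝ) / ((B:ℝ) - 2 * ((k:ℝ) - 1))) ^ k
          * (((n₁:ℝ) / ((n₁:ℝ) + n₂)) * ((M₁.choose k : ℝ) / (n₁.choose k : ℝ))
            + ((n₂:ℝ) / ((n₁:ℝ) + n₂)) * ((M₂.choose k : ℝ) / (n₂.choose k : ℝ)))
        + ((B:ℝ) / ((n₁:ℝ) + n₂)) ^ k := by
  have hn₁ : 0 < n₁ := by omega
  have hn₂ : 0 < n₂ := by omega
  have hn₁' : (0:ℝ) < n₁ := by exact_mod_cast hn₁
  have hn₂' : (0:ℝ) < n₂ := by exact_mod_cast hn₂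
  have hN : (0:ℝ) < (n₁:ℝ) + n₂ := by positivity
  have hkr : ((k:ℝ) - 1) = ((k - 1 : ℕ) : ℝ) := by
    rw [Nat.cast_sub hk1]
    simp
  have hBr : 2 * ((k:ℝ) - 1) < B := by
    rw [hkr]
    exact_mod_cast hB
  have hk1r : (1:ℝ) ≤ k := by exact_mod_cast hk1
  have hB0 : (0:ℝ) < (B:ℝ) - 2 * ((k:ℝ) - 1) := by linarith
  have hB1 : (0:ℝ) < B := by linarith
  set c : ℝ := (B:ℝ) / ((B:ℝ) - 2 * ((k:ℝ) - 1)) with hc
  have hc0 : 0 < c := by positivity
  set w₁ : ℝ := (n₁:ℝ) / ((n₁:ℝ) + n₂) with hw₁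
  set w₂ : ℝ := (n₂:ℝ) / ((n₁:ℝ) + n₂) with hw₂
  have hw₁0 : 0 ≤ w₁ := by positivity
  have hw₂0 : 0 ≤ w₂ := by positivity
  have hw : w₁ + w₂ = 1 := by
    rw [hw₁, hw₂]
    field_simp
  have hq₁ : 0 ≤ (M₁.choose k : ℝ) / (n₁.choose k : ℝ) := by positivity
  have hq₂ : 0 ≤ (M₂.choose k : ℝ) / (n₂.choose k : ℝ) := by positivity
  have hk' : k ≤ n₁ + n₂ := by omega
  have hL : (M.choose k : ℝ) / ((n₁ + n₂).choose k : ℝ) ≤ ((M:ℝ) / ((n₁:ℝ) + n₂)) ^ k := by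
    have := choose_ratio_le (k := k) hM' hk'
    push_cast at this
    exact this
  by_cases hcase : M < B
  · have hMB : (M:ℝ) ≤ B := by exact_mod_cast hcase.le
    have h1 : ((M:ℝ) / ((n₁:ℝ) + n₂)) ^ k ≤ ((B:ℝ) / ((n₁:ℝ) + n₂)) ^ k := by
      apply pow_le_pow_left₀ (by positivity)
      exact div_le_div_of_nonneg_right hMB hN.le
    have h2 : 0 ≤ c ^ k * (w₁ * ((M₁.choose k : ℝ) / (n₁.choose k : ℝ))
        + w₂ * ((M₂.choose k : ℝ) / (n₂.choose k : ℝ))) := by positivity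
    linarith
  · push Not at hcase
    have hMB : (B:ℝ) ≤ M := by exact_mod_cast hcase
    set x₁ : ℕ := M₁ + 1 - k with hx₁
    set x₂ : ℕ := M₂ + 1 - k with hx₂
    have hg₁ := choose_ratio_ge (k := k) M₁ hk₁ hn₁
    have hg₂ := choose_ratio_ge (k := k) M₂ hk₂ hn₂
    have hx₁r : (M₁:ℝ) - ((k:ℝ) - 1) ≤ x₁ := by
      have : M₁ + 1 ≤ x₁ + k := by omega
      have h : ((M₁ + 1 : ℕ) : ℝ) ≤ ((x₁ + k : ℕ) : ℝ) := by exact_mod_cast this
      push_cast at h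
      linarith
    have hx₂r : (M₂:ℝ) - ((k:ℝ) - 1) ≤ x₂ := by
      have : M₂ + 1 ≤ x₂ + k := by omega
      have h : ((M₂ + 1 : ℕ) : ℝ) ≤ ((x₂ + k : ℕ) : ℝ) := by exact_mod_cast this
      push_cast at h
      linarith
    have hMr : (M:ℝ) ≤ (M₁:ℝ) + M₂ := by exact_mod_cast hM
    -- the mean of the lower bounds
    have hmean : w₁ * ((x₁:ℝ) / n₁) + w₂ * ((x₂:ℝ) / n₂) = ((x₁:ℝ) + x₂) / ((n₁:ℝ) + n₂) := by
      rw [hw₁, hw₂]
      field_simp
    have hconv : (w₁ * ((x₁:ℝ) / n₁) + w₂ * ((x₂:ℝ) / n₂)) ^ k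
        ≤ w₁ * ((x₁:ℝ) / n₁) ^ k + w₂ * ((x₂:ℝ) / n₂) ^ k := by
      have := (convexOn_pow k).2 (x := (x₁:ℝ) / n₁) (y := (x₂:ℝ) / n₂)
        (Set.mem_Ici.mpr (by positivity)) (Set.mem_Ici.mpr (by positivity)) hw₁0 hw₂0 hw
      simpa [smul_eq_mul] using this
    -- the ratio
    have hratio : (M:ℝ) / ((n₁:ℝ) + n₂) ≤ c * (((x₁:ℝ) + x₂) / ((n₁:ℝ) + n₂)) := by
      rw [← mul_div_assoc]
      apply div_le_div_of_nonneg_right _ hN.le
      rw [hc, div_mul_eq_mul_div, le_div_iff₀ hB0]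
      have hx : (M:ℝ) - 2 * ((k:ℝ) - 1) ≤ (x₁:ℝ) + x₂ := by linarith
      have hk2 : 0 ≤ 2 * ((k:ℝ) - 1) := by linarith
      nlinarith [mul_le_mul_of_nonneg_left hx hB1.le, mul_le_mul_of_nonneg_left hMB hk2]
    have hpow : ((M:ℝ) / ((n₁:ℝ) + n₂)) ^ k
        ≤ c ^ k * (((x₁:ℝ) + x₂) / ((n₁:ℝ) + n₂)) ^ k := by
      rw [← mul_pow]
      exact pow_le_pow_left₀ (by positivity) hratio _
    have hfinal : (((x₁:ℝ) + x₂) / ((n₁:ℝ) + n₂)) ^ k
        ≤ w₁ * ((M₁.choose k : ℝ) / (n₁.choose k : ℝ))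
          + w₂ * ((M₂.choose k : ℝ) / (n₂.choose k : ℝ)) := by
      rw [← hmean]
      refine hconv.trans ?_
      exact add_le_add (mul_le_mul_of_nonneg_left hg₁ hw₁0) (mul_le_mul_of_nonneg_left hg₂ hw₂0)
    have h3 : c ^ k * (((x₁:ℝ) + x₂) / ((n₁:ℝ) + n₂)) ^ k
        ≤ c ^ k * (w₁ * ((M₁.choose k : ℝ) / (n₁.choose k : ℝ))
          + w₂ * ((M₂.choose k : ℝ) / (n₂.choose k : ℝ))) :=
      mul_le_mul_of_nonneg_left hfinal (by positivity)
    have h4 : (0:ℝ) ≤ ((B:ℝ) / ((n₁:ℝ) + n₂)) ^ k := by positivity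
    linarith

/-- The weights of the two blocks. -/
noncomputable def wt₁ (n₁ n₂ : ℕ) : ℝ := (n₁:ℝ) / ((n₁:ℝ) + n₂)

/-- The weights of the two blocks. -/
noncomputable def wt₂ (n₁ n₂ : ℕ) : ℝ := (n₂:ℝ) / ((n₁:ℝ) + n₂)

lemma wt_add (hn : 0 < n₁) : wt₁ n₁ n₂ + wt₂ n₁ n₂ = 1 := by
  have hn₁ : (0:ℝ) < n₁ := by exact_mod_cast hn
  have hn₂ : (0:ℝ) ≤ n₂ := by positivity
  unfold wt₁ wt₂
  field_simp

/-- The error factor. -/
noncomputable def etaB (k B : ℕ) : ℝ := ((B:ℝ) / ((B:ℝ) - 2 * ((k:ℝ) - 1))) ^ k - 1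

/-- The additive error. -/
noncomputable def tauB (k B N : ℕ) : ℝ := ((B:ℝ) / (2 * (N:ℝ))) ^ k

/-- The pointwise comparison of the one clause operators. -/
theorem kill_compare (hk1 : 1 ≤ k) (hk₁ : k ≤ n₁) (hk₂ : k ≤ n₂) {B : ℕ} (hB : 2 * (k - 1) < B)
    (S : Finset (Fin (n₁ + n₂) → Bool)) :
    nonemptyInd S - op (solSet : ProperClause (n₁ + n₂) k → _) nonemptyInd S
      ≤ (1 + etaB k B) * (nonemptyInd S
          - mix (wt₁ n₁ n₂) (wt₂ n₁ n₂) (op (sol1 n₂ : ProperClause n₁ k → _))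
              (op (sol2 n₁ : ProperClause n₂ k → _)) nonemptyInd S)
        + tauB k B (n₁ + n₂) := by
  have hn₁ : 0 < n₁ := by omega
  have hn₂ : 0 < n₂ := by omega
  have hn₁' : (0:ℝ) < n₁ := by exact_mod_cast hn₁
  have hn₂' : (0:ℝ) < n₂ := by exact_mod_cast hn₂
  have hc₁ := card_clause_pos hk₁
  have hc₂ := card_clause_pos hk₂
  have hcN : 0 < Fintype.card (ProperClause (n₁ + n₂) k) := card_clause_pos (by omega)
  have hkr : ((k:ℝ) - 1) = ((k - 1 : ℕ) : ℝ) := by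
    rw [Nat.cast_sub hk1]
    simp
  have hBr : 2 * ((k:ℝ) - 1) < B := by
    rw [hkr]
    exact_mod_cast hB
  have hk1r : (1:ℝ) ≤ k := by exact_mod_cast hk1
  have hB0 : (0:ℝ) < (B:ℝ) - 2 * ((k:ℝ) - 1) := by linarith
  have hB1 : (0:ℝ) < B := by linarith
  have hτ0 : 0 ≤ tauB k B (n₁ + n₂) := by
    unfold tauB
    positivity
  by_cases hS : S.Nonempty
  · have hS₁ : (S.image res1).Nonempty := hS.image _
    have hS₂ : (S.image res2).Nonempty := hS.image _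
    have he : nonemptyInd S = 1 := by simp [nonemptyInd, hS]
    unfold mix
    rw [op_sol1_nonemptyInd, op_sol2_nonemptyInd, op_nonemptyInd hS₁ k hc₁,
      op_nonemptyInd hS₂ k hc₂, op_nonemptyInd hS k hcN, he]
    have hM := card_dead_le_add S
    have hM' := card_dead_le hS
    have hnum := kill_numeric (n₁ := n₁) (n₂ := n₂) (k := k) hk1 hk₁ hk₂ hM hM' hB
    set M := (deadLits S).card
    set M₁ := (deadLits (S.image res1)).card
    set M₂ := (deadLits (S.image res2)).card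
    have hpow : (2:ℝ) ^ k ≠ 0 := by positivity
    have hC₁ : ((n₁.choose k : ℕ) : ℝ) ≠ 0 := by
      exact_mod_cast (Nat.choose_pos hk₁).ne'
    have hC₂ : ((n₂.choose k : ℕ) : ℝ) ≠ 0 := by
      exact_mod_cast (Nat.choose_pos hk₂).ne'
    have hCN : (((n₁ + n₂).choose k : ℕ) : ℝ) ≠ 0 := by
      exact_mod_cast (Nat.choose_pos (by omega : k ≤ n₁ + n₂)).ne'
    rw [card_clause, card_clause, card_clause]
    have hw := wt_add (n₁ := n₁) (n₂ := n₂) hn₁
    have e1 : (1:ℝ) - (wt₁ n₁ n₂ * (1 - (M₁.choose k : ℝ) / ((2 ^ k * n₁.choose k : ℕ) : ℝ))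
          + wt₂ n₁ n₂ * (1 - (M₂.choose k : ℝ) / ((2 ^ k * n₂.choose k : ℕ) : ℝ)))
        = ((1:ℝ) / 2) ^ k * (wt₁ n₁ n₂ * ((M₁.choose k : ℝ) / (n₁.choose k : ℝ))
          + wt₂ n₁ n₂ * ((M₂.choose k : ℝ) / (n₂.choose k : ℝ))) := by
      push_cast
      have e2 : (1:ℝ) = wt₁ n₁ n₂ + wt₂ n₁ n₂ := hw.symm
      rw [one_div, inv_pow]
      field_simp
      have e3 : wt₁ n₁ n₂ * (2:ℝ) ^ k + wt₂ n₁ n₂ * 2 ^ k = 2 ^ k := by
        rw [← add_mul, hw, one_mul]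
      linear_combination (-(n₁.choose k : ℝ) * (n₂.choose k : ℝ)) * e3
    have e4 : (1:ℝ) - (1 - (M.choose k : ℝ) / ((2 ^ k * (n₁ + n₂).choose k : ℕ) : ℝ))
        = ((1:ℝ) / 2) ^ k * ((M.choose k : ℝ) / ((n₁ + n₂).choose k : ℝ)) := by
      push_cast
      rw [one_div, inv_pow]
      field_simp
      ring
    rw [e1, e4]
    have e5 : 1 + etaB k B = ((B:ℝ) / ((B:ℝ) - 2 * ((k:ℝ) - 1))) ^ k := by
      unfold etaB
      ring
    have e6 : tauB k B (n₁ + n₂) = ((1:ℝ) / 2) ^ k * ((B:ℝ) / ((n₁:ℝ) + n₂)) ^ k := by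
      unfold tauB
      rw [← mul_pow]
      congr 1
      push_cast
      field_simp
    rw [e5, e6]
    have hhalf : (0:ℝ) ≤ ((1:ℝ) / 2) ^ k := by positivity
    have := mul_le_mul_of_nonneg_left hnum hhalf
    unfold wt₁ wt₂ at *
    linarith
  · have hS0 : S = ∅ := Finset.not_nonempty_iff_eq_empty.mp hS
    subst hS0
    have h1 := (op_valid (solSet : ProperClause (n₁ + n₂) k → _) hcN
      (valid_nonemptyInd (α := Fin (n₁ + n₂) → Bool))).empty
    have h2 := (op_valid (sol1 n₂ : ProperClause n₁ k → _) hc₁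
      (valid_nonemptyInd (α := Fin (n₁ + n₂) → Bool))).empty
    have h3 := (op_valid (sol2 n₁ : ProperClause n₂ k → _) hc₂
      (valid_nonemptyInd (α := Fin (n₁ + n₂) → Bool))).empty
    have h4 : nonemptyInd (∅ : Finset (Fin (n₁ + n₂) → Bool)) = 0 := by simp [nonemptyInd]
    unfold mix
    rw [h1, h2, h3, h4]
    simpa using hτ0

end Vale.Agent.Lib.P170S
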