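import Vale.Agent.Lib.P170.Main
import Vale.Agent.Lib.P170S.Array

/-! Mixtures of two averaging operators, and the comparison with a third one. -/

set_option linter.unusedSectionVars false

namespace Vale.Agent.Lib.P170S

open Finset
open Vale.Agent.Lib.P170

section
variable {α : Type*} [DecidableEq α]

/-- The mixture `p A + q B`. -/
noncomputable def mix (p q : ℝ) (A B : (Finset α → ℝ) → (Finset α → ℝ)) (g : Finset α → ℝ)
    (S : Finset α) : ℝ := p * A g S + q * B g S

lemma mix_isMk {A B : (Finset α → ℝ) → (Finset α → ℝ)} (hA : IsMk A) (hB : IsMk B)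
    {p q : ℝ} (hp : 0 ≤ p) (hq : 0 ≤ q) (hpq : p + q = 1) : IsMk (mix p q A B) := by
  refine ⟨?_, ?_, ?_, ?_⟩
  · intro g h hgh S
    unfold mix
    have h1 := hA.mono g h hgh S
    have h2 := hB.mono g h hgh S
    nlinarith [mul_le_mul_of_nonneg_left h1 hp, mul_le_mul_of_nonneg_left h2 hq]
  · intro g h
    funext S
    unfold mix
    rw [hA.add, hB.add]
    ring
  · intro c g
    funext S
    unfold mix
    rw [hA.smul, hB.smul]
    ring
  · intro c
    funext S
    unfold mix
    rw [hA.const, hB.const]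
    have : p * c + q * c = (p + q) * c := by ring
    rw [this, hpq, one_mul]

lemma mix_commute {W A B : (Finset α → ℝ) → (Finset α → ℝ)} (hW : IsMk W)
    (hWA : Function.Commute W A) (hWB : Function.Commute W B) (p q : ℝ) :
    Function.Commute W (mix p q A B) := by
  intro g
  funext S
  change W (fun S => p * A g S + q * B g S) S = p * A (W g) S + q * B (W g) S
  have e : (fun S => p * A g S + q * B g S)
      = (fun S => (fun S => p * A g S) S + (fun S => q * B g S) S) := rfl
  rw [e, hW.add, hW.smul, hW.smul]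
  have h1 := congrFun (hWA g) S
  have h2 := congrFun (hWB g) S
  change p * W (A g) S + q * W (B g) S = _
  rw [h1, h2]

section ops
variable {ι₀ ι₁ ι₂ : Type*} [Fintype ι₀] [Fintype ι₁] [Fintype ι₂]

lemma mix_valid (s₁ : ι₁ → Finset α) (s₂ : ι₂ → Finset α) (h₁ : 0 < Fintype.card ι₁)
    (h₂ : 0 < Fintype.card ι₂) {p q : ℝ} (hp : 0 ≤ p) (hq : 0 ≤ q) (hpq : p + q = 1)
    {g : Finset α → ℝ} (hg : Valid g) : Valid (mix p q (op s₁) (op s₂) g) := by
  have v₁ := op_valid s₁ h₁ hg
  have v₂ := op_valid s₂ h₂ hg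
  refine ⟨?_, ?_, ?_, ?_⟩
  · intro S T hST
    unfold mix
    have h1 := v₁.mono S T hST
    have h2 := v₂.mono S T hST
    nlinarith [mul_le_mul_of_nonneg_left h1 hp, mul_le_mul_of_nonneg_left h2 hq]
  · intro S
    unfold mix
    have h1 := v₁.nonneg S
    have h2 := v₂.nonneg S
    positivity
  · intro S
    unfold mix
    have h1 := v₁.le_one S
    have h2 := v₂.le_one S
    nlinarith [mul_le_mul_of_nonneg_left h1 hp, mul_le_mul_of_nonneg_left h2 hq]
  · unfold mix
    rw [v₁.empty, v₂.empty]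
    ring

lemma mix_iter_valid (s₁ : ι₁ → Finset α) (s₂ : ι₂ → Finset α) (h₁ : 0 < Fintype.card ι₁)
    (h₂ : 0 < Fintype.card ι₂) {p q : ℝ} (hp : 0 ≤ p) (hq : 0 ≤ q) (hpq : p + q = 1)
    {g : Finset α → ℝ} (hg : Valid g) (b : ℕ) : Valid ((mix p q (op s₁) (op s₂))^[b] g) := by
  induction b with
  | zero => exact hg
  | succ b ih =>
    rw [Function.iterate_succ_apply']
    exact mix_valid s₁ s₂ h₁ h₂ hp hq hpq ih

lemma mix_le_self (s₁ : ι₁ → Finset α) (s₂ : ι₂ → Finset α) (h₁ : 0 < Fintype.card ι₁)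
    (h₂ : 0 < Fintype.card ι₂) {p q : ℝ} (hp : 0 ≤ p) (hq : 0 ≤ q) (hpq : p + q = 1)
    {g : Finset α → ℝ} (hg : MonoFn g) (S : Finset α) :
    mix p q (op s₁) (op s₂) g S ≤ g S := by
  unfold mix
  have h1 := op_le_self s₁ h₁ hg S
  have h2 := op_le_self s₂ h₂ hg S
  have e : g S = p * g S + q * g S := by
    have : p * g S + q * g S = (p + q) * g S := by ring
    rw [this, hpq, one_mul]
  rw [e]
  nlinarith [mul_le_mul_of_nonneg_left h1 hp, mul_le_mul_of_nonneg_left h2 hq]

lemma mix_iter_anti (s₁ : ι₁ → Finset α) (s₂ : ι₂ → Finset α) (h₁ : 0 < Fintype.card ι₁)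
    (h₂ : 0 < Fintype.card ι₂) {p q : ℝ} (hp : 0 ≤ p) (hq : 0 ≤ q) (hpq : p + q = 1)
    {g : Finset α → ℝ} (hg : Valid g) (S : Finset α) {b b' : ℕ} (h : b ≤ b') :
    (mix p q (op s₁) (op s₂))^[b'] g S ≤ (mix p q (op s₁) (op s₂))^[b] g S := by
  induction h with
  | refl => exact le_rfl
  | step _ ih =>
    rw [Function.iterate_succ_apply']
    exact (mix_le_self s₁ s₂ h₁ h₂ hp hq hpq (mix_iter_valid s₁ s₂ h₁ h₂ hp hq hpq hg _).mono S).trans ih

/-- The array of survival values. -/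
noncomputable def vv (s₀ : ι₀ → Finset α) (s₁ : ι₁ → Finset α) (s₂ : ι₂ → Finset α) (p q : ℝ)
    (U : Finset α) (a b : ℕ) : ℝ :=
  (op s₀)^[a] ((mix p q (op s₁) (op s₂))^[b] nonemptyInd) U

/-- The abstract comparison. -/
theorem compare_main (s₀ : ι₀ → Finset α) (s₁ : ι₁ → Finset α) (s₂ : ι₂ → Finset α)
    (h₀ : 0 < Fintype.card ι₀) (h₁ : 0 < Fintype.card ι₁) (h₂ : 0 < Fintype.card ι₂)
    {p q : ℝ} (hp : 0 ≤ p) (hq : 0 ≤ q) (hpq : p + q = 1) {η τ : ℝ} (hη : 0 ≤ η) (hτ : 0 ≤ τ)
    (hk : ∀ S : Finset α, nonemptyInd S - op s₀ nonemptyInd S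
      ≤ (1 + η) * (nonemptyInd S - mix p q (op s₁) (op s₂) nonemptyInd S) + τ)
    (U : Finset α) (m w : ℕ) (hw : 0 < w) :
    (mix p q (op s₁) (op s₂))^[m + w] nonemptyInd U - η * ((m + w : ℕ) : ℝ) / w
        - ((m + w : ℕ) : ℝ) * τ
      ≤ (op s₀)^[m] nonemptyInd U := by
  set W := op s₀ with hWdef
  set T := mix p q (op s₁) (op s₂) with hTdef
  have hWk : IsMk W := op_isMk s₀ h₀
  have hTk : IsMk T := mix_isMk (op_isMk s₁ h₁) (op_isMk s₂ h₂) hp hq hpq
  have hcomm : Function.Commute W T :=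
    mix_commute hWk (op_comm s₀ s₁) (op_comm s₀ s₂) p q
  have hv := path_lemma (vv s₀ s₁ s₂ p q U) η τ hη hτ ?_ ?_ ?_ ?_ m w hw
  · simpa [vv, hWdef, hTdef] using hv
  · -- the one step inequality
    intro a b
    have hV : IsMk (W^[a] ∘ T^[b]) := (hWk.iterate a).comp (hTk.iterate b)
    have hineq : ∀ S, (fun S => nonemptyInd S + (1 + η) * T nonemptyInd S) S
        ≤ (fun S => ((1 + η) * nonemptyInd S + W nonemptyInd S) + τ) S := by
      intro S
      have := hk S
      simp only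
      nlinarith
    have h1 := hV.mono _ _ hineq U
    have e1 : (fun S => nonemptyInd S + (1 + η) * T nonemptyInd S)
        = (fun S => (nonemptyInd : Finset α → ℝ) S + (fun S => (1 + η) * T nonemptyInd S) S) := rfl
    have e2 : (fun S => ((1 + η) * nonemptyInd S + W nonemptyInd S) + τ)
        = (fun S => (fun S => (fun S => (1 + η) * (nonemptyInd : Finset α → ℝ) S) S
            + W nonemptyInd S) S + (fun _ => τ) S) := rfl
    rw [e1, e2, hV.add, hV.add, hV.add, hV.smul, hV.smul, hV.const] at h1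
    simp only [Function.comp_apply] at h1
    have e3 : T^[b] (T nonemptyInd) = T^[b + 1] nonemptyInd := by
      rw [Function.iterate_succ_apply]
    have e4 : T^[b] (W nonemptyInd) = W (T^[b] nonemptyInd) := by
      have := (hcomm.iterate_right b) nonemptyInd
      simpa [Function.comp_apply] using this.symm
    have e5 : W^[a] (W (T^[b] nonemptyInd)) = W^[a + 1] (T^[b] nonemptyInd) := by
      rw [Function.iterate_succ_apply]
    rw [e3, e4, e5] at h1
    simp only [vv, ← hWdef, ← hTdef]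
    nlinarith
  · intro a b
    have hval : Valid (W^[a] (T^[b] nonemptyInd)) :=
      iter_valid s₀ h₀ (mix_iter_valid s₁ s₂ h₁ h₂ hp hq hpq valid_nonemptyInd b) a
    exact ⟨hval.nonneg U, hval.le_one U⟩
  · intro a b b' hbb
    have hmono : ∀ S, T^[b'] nonemptyInd S ≤ T^[b] nonemptyInd S :=
      fun S => mix_iter_anti s₁ s₂ h₁ h₂ hp hq hpq valid_nonemptyInd S hbb
    exact (hWk.iterate a).mono _ _ hmono U
  · intro a a' b haa
    exact iter_anti s₀ h₀ (mix_iter_valid s₁ s₂ h₁ h₂ hp hq hpq valid_nonemptyInd b) U haa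

end ops

/-- A positive unital linear operator as a linear endomorphism. -/
noncomputable def toEnd {W : (Finset α → ℝ) → (Finset α → ℝ)} (hW : IsMk W) :
    Module.End ℝ (Finset α → ℝ) where
  toFun := W
  map_add' g h := hW.add g h
  map_smul' c g := hW.smul c g

@[simp] lemma toEnd_apply {W : (Finset α → ℝ) → (Finset α → ℝ)} (hW : IsMk W)
    (g : Finset α → ℝ) : toEnd hW g = W g := rfl

lemma toEnd_pow_apply {W : (Finset α → ℝ) → (Finset α → ℝ)} (hW : IsMk W) (n : ℕ)
    (g : Finset α → ℝ) : ((toEnd hW) ^ n) g = W^[n] g := by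
  rw [Module.End.pow_apply]
  rfl

/-- The binomial expansion of a mixture of two commuting operators. -/
theorem mix_iterate_eq {A B : (Finset α → ℝ) → (Finset α → ℝ)} (hA : IsMk A) (hB : IsMk B)
    (hAB : Function.Commute A B) {p q : ℝ} (hp : 0 ≤ p) (hq : 0 ≤ q) (hpq : p + q = 1)
    (L : ℕ) (g : Finset α → ℝ) (S : Finset α) :
    (mix p q A B)^[L] g S
      = ∑ j ∈ range (L + 1), (L.choose j : ℝ) * (p ^ j * q ^ (L - j)) * (A^[j] (B^[L - j] g)) S := by
  have hT := mix_isMk hA hB hp hq hpq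
  set a := toEnd hA with ha
  set b := toEnd hB with hb
  have hcomm : Commute (p • a) (q • b) := by
    have hc : Commute a b := by
      ext g S
      exact congrFun (hAB g) S
    exact (hc.smul_left p).smul_right q
  have hTe : toEnd hT = p • a + q • b := by
    ext g S
    rfl
  rw [← toEnd_pow_apply hT, hTe, hcomm.add_pow]
  rw [LinearMap.sum_apply, Finset.sum_apply]
  refine Finset.sum_congr rfl fun j _ => ?_
  have hn : ((L.choose j : ℕ) : Module.End ℝ (Finset α → ℝ))
      = (L.choose j : ℝ) • (1 : Module.End ℝ (Finset α → ℝ)) := by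
    ext g S
    simp [Module.End.natCast_apply]
  rw [smul_pow, smul_pow, hn]
  simp only [mul_smul_comm, smul_mul_assoc, LinearMap.smul_apply, Pi.smul_apply, smul_eq_mul,
    mul_one, Module.End.mul_apply]
  rw [ha, hb, toEnd_pow_apply hA, toEnd_pow_apply hB]
  ring

end

end Vale.Agent.Lib.P170S
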