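import Vale.Agent.Lib.P170S.Sub

/-! The growth bound and the asymptotic monotonicity of threshold sequences. -/

set_option linter.unusedSectionVars false

namespace Vale.Agent.Lib.P170S

open Finset Filter Topology
open Vale.Agent.Lib.P170

open Classical

variable {n₁ n₂ k : ℕ}

lemma rho_le (hk : k ≤ n₁) : rho n₁ n₂ k ≤ ((n₁:ℝ) / ((n₁ + n₂ : ℕ) : ℝ)) ^ k := by
  rw [rho_eq hk]
  exact choose_ratio_le (by omega) (by omega)

lemma rho_ge (hk1 : 1 ≤ k) (hk : k ≤ n₁) :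
    ((n₁:ℝ) / ((n₁ + n₂ : ℕ) : ℝ)) ^ k * (1 - k * ((k:ℝ) - 1) / n₁) ≤ rho n₁ n₂ k := by
  have hn : 0 < n₁ := by omega
  have hn' : (0:ℝ) < n₁ := by exact_mod_cast hn
  have hN : 0 < n₁ + n₂ := by omega
  have hN' : (0:ℝ) < ((n₁ + n₂ : ℕ) : ℝ) := by exact_mod_cast hN
  rw [rho_eq hk]
  refine le_trans ?_ (choose_ratio_ge n₁ (by omega) hN)
  have hx : ((n₁ + 1 - k : ℕ) : ℝ) = (n₁:ℝ) - ((k:ℝ) - 1) := by
    rw [Nat.cast_sub (by omega)]
    push_cast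
    ring
  have hkn : (k:ℝ) ≤ n₁ := by exact_mod_cast hk
  have hk1' : (1:ℝ) ≤ k := by exact_mod_cast hk1
  have he : ((n₁ + 1 - k : ℕ) : ℝ) / ((n₁ + n₂ : ℕ) : ℝ)
      = ((n₁:ℝ) / ((n₁ + n₂ : ℕ) : ℝ)) * (1 + (-(((k:ℝ) - 1) / n₁))) := by
    rw [hx]
    field_simp
    ring
  rw [he, mul_pow]
  apply mul_le_mul_of_nonneg_left _ (by positivity)
  have hb : -2 ≤ -(((k:ℝ) - 1) / n₁) := by
    have : ((k:ℝ) - 1) / n₁ ≤ 1 := by
      rw [div_le_one hn']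
      linarith
    linarith
  have := one_add_mul_le_pow hb k
  have e : 1 + (k:ℝ) * (-(((k:ℝ) - 1) / n₁)) = 1 - k * ((k:ℝ) - 1) / n₁ := by
    field_simp
    ring
  rwa [e] at this

/-- The numerical part of the growth bound. -/
lemma growth_numeric {a N α g ρ R ε₀ rn mr mpr c : ℝ} {K : ℕ} (ha : 0 < a) (hN : 0 < N)
    (hα : 0 < α) (hαR : α ≤ R) (hg0 : 0 ≤ g) (hg1 : g ≤ 1) (hε₀ : 0 < ε₀)
    (hgk : N * (a / N) ^ (K + 1) = a * g) (hρ0 : 0 ≤ ρ) (hρ1 : ρ ≤ 1)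
    (hρu : ρ ≤ (a / N) ^ (K + 1)) (hρl : (a / N) ^ (K + 1) * (1 - c / a) ≤ ρ)
    (hc0 : 0 ≤ c) (hαg : rn + 3 * ε₀ < α * g) (hrn : -ε₀ < rn)
    (hm1 : α * N - 1 < mr) (hm2 : mr ≤ α * N) (hm0 : 0 ≤ mr)
    (hmp : mpr ≤ (rn + ε₀) * a) (han : R * c + 1 ≤ ε₀ * a) (han2 : 8 * R / ε₀ ^ 2 ≤ a) :
    mpr + ε₀ * a ≤ mr * ρ ∧ mr * ρ * (1 - ρ) / (ε₀ * a) ^ 2 ≤ 1 / 8 := by
  have hgpos : 0 ≤ α * g := by positivity
  have hp0 : 0 ≤ (a / N) ^ (K + 1) := by positivity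
  constructor
  · have h1 : (α * N - 1) * ρ ≤ mr * ρ := mul_le_mul_of_nonneg_right hm1.le hρ0
    have h2 : α * N * ((a / N) ^ (K + 1) * (1 - c / a)) ≤ α * N * ρ :=
      mul_le_mul_of_nonneg_left hρl (by positivity)
    have h3 : α * N * ((a / N) ^ (K + 1) * (1 - c / a)) = (α * g) * a - (α * g) * c := by
      have : α * N * ((a / N) ^ (K + 1) * (1 - c / a)) = α * (N * (a / N) ^ (K + 1)) * (1 - c / a) := by
        ring
      rw [this, hgk]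
      field_simp
    have h4 : (α * g) * c ≤ R * c := by
      apply mul_le_mul_of_nonneg_right _ hc0
      calc α * g ≤ α * 1 := mul_le_mul_of_nonneg_left hg1 hα.le
        _ = α := mul_one α
        _ ≤ R := hαR
    have h5 : (rn + 3 * ε₀) * a ≤ (α * g) * a := mul_le_mul_of_nonneg_right hαg.le ha.le
    nlinarith
  · have hs : 0 < (ε₀ * a) ^ 2 := by positivity
    rw [div_le_iff₀ hs]
    have h1 : mr * ρ * (1 - ρ) ≤ mr * ρ := by
      have : 0 ≤ mr * ρ := mul_nonneg hm0 hρ0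
      nlinarith
    have h2 : mr * ρ ≤ (α * N) * (a / N) ^ (K + 1) := mul_le_mul hm2 hρu hρ0 (by positivity)
    have h3 : (α * N) * (a / N) ^ (K + 1) = (α * g) * a := by
      have : (α * N) * (a / N) ^ (K + 1) = α * (N * (a / N) ^ (K + 1)) := by ring
      rw [this, hgk]
      ring
    have h4 : (α * g) * a ≤ R * a := by
      apply mul_le_mul_of_nonneg_right _ ha.le
      calc α * g ≤ α * 1 := mul_le_mul_of_nonneg_left hg1 hα.le
        _ = α := mul_one α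
        _ ≤ R := hαR
    rw [div_le_iff₀ (by positivity)] at han2
    have h5 : 8 * (R * a) ≤ a * (a * ε₀ ^ 2) := by
      have := mul_le_mul_of_nonneg_left han2 ha.le
      nlinarith
    nlinarith

/-- The growth bound: going down to a block loses at most the obvious factor. -/
theorem growth_bound (hk : 2 ≤ k) {r : ℕ → ℝ} (hr : IsThresholdSeq k r) {ε : ℝ} (hε : 0 < ε) :
    ∃ n₀ : ℕ, ∀ n N : ℕ, n₀ ≤ n → n ≤ N → ((n:ℝ) / N) ^ (k - 1) * r N - ε ≤ r n := by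
  have hk1 : 1 ≤ k := by omega
  obtain ⟨R, hR0, hR⟩ := threshold_bounded hk1 hr
  set ε₀ := ε / 4 with hε₀
  have hε₀0 : 0 < ε₀ := by positivity
  obtain ⟨hlow, hupp⟩ := hr ε₀ hε₀0
  have h1 : ∀ᶠ n : ℕ in atTop, (3 / 4 : ℝ) < satProb k n ⌊(r n - ε₀) * n⌋₊ :=
    hlow.eventually (lt_mem_nhds (by norm_num))
  have h2 : ∀ᶠ n : ℕ in atTop, satProb k n ⌊(r n + ε₀) * n⌋₊ < (1 / 8 : ℝ) :=
    hupp.eventually (gt_mem_nhds (by norm_num))
  set c : ℝ := (k:ℝ) * ((k:ℝ) - 1) with hc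
  have hk1' : (1:ℝ) ≤ k := by exact_mod_cast hk1
  have hc0 : 0 ≤ c := by
    rw [hc]
    apply mul_nonneg <;> linarith
  obtain ⟨n₀, hn₀⟩ := eventually_atTop.mp (h1.and (h2.and (hR.and (eventually_ge_atTop
    (max (max k 1) (max ⌈(R * c + 1) / ε₀⌉₊ ⌈8 * R / ε₀ ^ 2⌉₊))))))
  refine ⟨n₀, ?_⟩
  intro n N hn hnN
  obtain ⟨a1, a2, a3, a4⟩ := hn₀ n hn
  obtain ⟨b1, b2, b3, _⟩ := hn₀ N (hn.trans hnN)
  simp only [max_le_iff] at a4
  obtain ⟨⟨hkn, hn1⟩, ha1, ha2⟩ := a4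
  obtain ⟨n₂, rfl⟩ := Nat.exists_eq_add_of_le hnN
  have ha0 : (0:ℝ) < n := by exact_mod_cast (by omega : 0 < n)
  have hN0 : (0:ℝ) < ((n + n₂ : ℕ) : ℝ) := by exact_mod_cast (by omega : 0 < n + n₂)
  have hrn : -ε₀ < r n := by
    by_contra hneg
    push Not at hneg
    have : ⌊(r n + ε₀) * n⌋₊ = 0 :=
      Nat.floor_of_nonpos (mul_nonpos_of_nonpos_of_nonneg (by linarith) ha0.le)
    rw [this, satProb_zero] at a2
    norm_num at a2
  by_contra hcon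
  push Not at hcon
  set g : ℝ := ((n:ℝ) / ((n + n₂ : ℕ) : ℝ)) ^ (k - 1) with hg
  have hratio1 : (n:ℝ) / ((n + n₂ : ℕ) : ℝ) ≤ 1 := by
    rw [div_le_one hN0]
    exact_mod_cast Nat.le_add_right n n₂
  have hg0 : 0 ≤ g := by positivity
  have hg1 : g ≤ 1 := pow_le_one₀ (by positivity) hratio1
  set y := r (n + n₂) with hy
  set α := y - ε₀ with hα
  have hε4 : ε = 4 * ε₀ := by rw [hε₀]; ring
  have hgy : r n + 4 * ε₀ < g * y := by linarith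
  have hαg : r n + 3 * ε₀ < α * g := by
    have : α * g = g * y - g * ε₀ := by rw [hα]; ring
    rw [this]
    nlinarith
  have hα0 : 0 < α := by
    by_contra hneg
    push Not at hneg
    have : α * g ≤ 0 := mul_nonpos_of_nonpos_of_nonneg hneg hg0
    linarith
  have hαR : α ≤ R := by rw [hα]; linarith
  set m := ⌊α * ((n + n₂ : ℕ) : ℝ)⌋₊ with hm
  set m' := ⌊(r n + ε₀) * n⌋₊ with hm'
  have hgk : ((n + n₂ : ℕ) : ℝ) * ((n:ℝ) / ((n + n₂ : ℕ) : ℝ)) ^ (k - 1 + 1) = (n:ℝ) * g := by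
    rw [pow_succ, hg]
    field_simp
  have hkk : k - 1 + 1 = k := by omega
  have hρu := rho_le (n₂ := n₂) hkn
  have hρl := rho_ge (n₂ := n₂) hk1 hkn
  rw [← hkk] at hρu hρl
  have hc' : ((k - 1 + 1 : ℕ) : ℝ) * ((((k - 1 + 1 : ℕ) : ℝ)) - 1) = c := by
    rw [hkk]
  have hρl' : ((n:ℝ) / ((n + n₂ : ℕ) : ℝ)) ^ (k - 1 + 1) * (1 - c / n) ≤ rho n n₂ (k - 1 + 1) := by
    rw [← hc']
    exact hρl
  rw [hkk] at hρu hρl'
  have hρu' : rho n n₂ k ≤ ((n:ℝ) / ((n + n₂ : ℕ) : ℝ)) ^ (k - 1 + 1) := by rw [hkk]; exact hρu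
  have hρl'' : ((n:ℝ) / ((n + n₂ : ℕ) : ℝ)) ^ (k - 1 + 1) * (1 - c / n) ≤ rho n n₂ k := by
    rw [hkk]; exact hρl'
  have hm1 : α * ((n + n₂ : ℕ) : ℝ) - 1 < (m:ℝ) := by
    have := Nat.lt_floor_add_one (α * ((n + n₂ : ℕ) : ℝ))
    linarith
  have hm2 : (m:ℝ) ≤ α * ((n + n₂ : ℕ) : ℝ) := Nat.floor_le (by positivity)
  have hmp : (m':ℝ) ≤ (r n + ε₀) * n := Nat.floor_le (mul_nonneg (by linarith) ha0.le)
  have han : R * c + 1 ≤ ε₀ * n := by
    have : (R * c + 1) / ε₀ ≤ n := (Nat.le_ceil _).trans (Nat.cast_le.mpr ha1)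
    rw [div_le_iff₀ hε₀0] at this
    linarith
  have han2 : 8 * R / ε₀ ^ 2 ≤ n := (Nat.le_ceil _).trans (Nat.cast_le.mpr ha2)
  obtain ⟨hq1, hq2⟩ := growth_numeric ha0 hN0 hα0 hαR hg0 hg1 hε₀0 hgk rho_nonneg
    (rho_le_one hkn) hρu' hρl'' hc0 hαg hrn hm1 hm2 (Nat.cast_nonneg m) hmp han han2
  have hfin := satProb_le_sub (n₂ := n₂) hkn m m' (s := ε₀ * n) (by positivity) hq1
  have b1' : (3 / 4 : ℝ) < satProb k (n + n₂) m := b1
  linarith

/-- Asymptotic monotonicity of threshold sequences. -/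
theorem asymptotic_mono (hk : 2 ≤ k) {r : ℕ → ℝ} (hr : IsThresholdSeq k r) {ε : ℝ} (hε : 0 < ε) :
    ∃ Λ : ℕ, 0 < Λ ∧ ∀ Λ' : ℕ, ∃ n₀ : ℕ, ∀ n N : ℕ, n₀ ≤ n → Λ * n ≤ N → N ≤ Λ' * n →
      r n - ε ≤ r N := by
  have hk1 : 1 ≤ k := by omega
  obtain ⟨R, hR0, hR⟩ := threshold_bounded hk1 hr
  obtain ⟨n_R, hn_R⟩ := eventually_atTop.mp hR
  have hk1' : (1:ℝ) ≤ k := by exact_mod_cast hk1
  set c : ℝ := ((k:ℝ) - 1) * R with hc
  have hc0 : 0 ≤ c := by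
    rw [hc]
    apply mul_nonneg <;> linarith
  set Λ : ℕ := ⌈4 * c / ε⌉₊ + 1 with hΛ
  refine ⟨Λ, by omega, ?_⟩
  intro Λ'
  have hΛr : 4 * c / ε ≤ Λ := by
    rw [hΛ]
    push_cast
    linarith [Nat.le_ceil (4 * c / ε)]
  choose f hf using fun q : ℕ => mult_closure hk hr q (ε := ε / 4) (by positivity)
  obtain ⟨n₂, hn₂⟩ := growth_bound hk hr (ε := ε / 4) (by positivity)
  refine ⟨max (max ((range (Λ' + 1)).sup f) n₂) (max n_R 1), ?_⟩
  intro n N hn hlow hupp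
  simp only [max_le_iff] at hn
  obtain ⟨⟨hn1, hn2⟩, hn3, hn4⟩ := hn
  have hnpos : 0 < n := by omega
  set q := N / n with hq
  have hdm := Nat.div_add_mod N n
  have hmod := Nat.mod_lt N hnpos
  rw [← hq] at hdm
  have hqΛ : Λ ≤ q := by
    rw [hq, Nat.le_div_iff_mul_le hnpos]
    exact hlow
  have hqΛ' : q ≤ Λ' := by
    rw [hq]
    exact Nat.div_le_of_le_mul (by rwa [mul_comm] at hupp)
  have hfq : f q ≤ n := (Finset.le_sup (f := f) (Finset.mem_range.mpr (by omega))).trans hn1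
  have h1 := hf q n hfq
  have hΛ1 : 1 ≤ Λ := by omega
  have hnN : n ≤ N := by
    calc n = 1 * n := (one_mul n).symm
      _ ≤ Λ * n := Nat.mul_le_mul_right n hΛ1
      _ ≤ N := hlow
  have hNx : N ≤ (q + 1) * n := by
    have e : (q + 1) * n = n * q + n := by ring
    rw [e]
    omega
  have hqN : q * n ≤ N := by
    have e : q * n = n * q := by ring
    rw [e]
    omega
  have h2 := hn₂ N ((q + 1) * n) (hn2.trans hnN) hNx
  set x := (q + 1) * n with hx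
  have hxpos : (0:ℝ) < x := by
    have : 0 < x := by positivity
    exact_mod_cast this
  have hnx : n_R ≤ x := by
    have : n ≤ x := by
      rw [hx]
      nlinarith
    omega
  have hy := hn_R x hnx
  set y := r x with hyd
  set g : ℝ := ((N:ℝ) / x) ^ (k - 1) with hg
  have hNr : (N:ℝ) ≤ x := by exact_mod_cast hNx
  have hqr : ((q:ℝ)) * n ≤ N := by exact_mod_cast hqN
  have hq1 : (1:ℝ) ≤ (q:ℝ) + 1 := by linarith [(Nat.cast_nonneg q : (0:ℝ) ≤ q)]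
  have hnr : (0:ℝ) < n := by exact_mod_cast hnpos
  have hxr : (x:ℝ) = ((q:ℝ) + 1) * n := by
    rw [hx]
    push_cast
    ring
  have hg0 : 0 ≤ g := by positivity
  have hg1 : g ≤ 1 := pow_le_one₀ (by positivity) (by rw [div_le_one hxpos]; exact hNr)
  have hbase : 1 + (-(1 / ((q:ℝ) + 1))) ≤ (N:ℝ) / x := by
    rw [le_div_iff₀ hxpos, hxr]
    have e : (1 + -(1 / ((q:ℝ) + 1))) * (((q:ℝ) + 1) * n) = (q:ℝ) * n := by
      field_simp
      ring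
    rw [e]
    exact hqr
  have hber : 1 - ((k:ℝ) - 1) / ((q:ℝ) + 1) ≤ g := by
    have hb : -2 ≤ -(1 / ((q:ℝ) + 1)) := by
      have : 1 / ((q:ℝ) + 1) ≤ 1 := by
        rw [div_le_one (by linarith)]
        exact hq1
      linarith
    have h3 := one_add_mul_le_pow hb (k - 1)
    have h4 : (1 + (-(1 / ((q:ℝ) + 1)))) ^ (k - 1) ≤ g := by
      apply pow_le_pow_left₀ _ hbase
      have : 1 / ((q:ℝ) + 1) ≤ 1 := by
        rw [div_le_one (by linarith)]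
        exact hq1
      linarith
    have e : 1 + ((k - 1 : ℕ) : ℝ) * (-(1 / ((q:ℝ) + 1))) = 1 - ((k:ℝ) - 1) / ((q:ℝ) + 1) := by
      rw [Nat.cast_sub hk1]
      push_cast
      field_simp
      ring
    rw [e] at h3
    linarith
  have hqΛr : (Λ:ℝ) ≤ (q:ℝ) + 1 := by
    have : (Λ:ℝ) ≤ q := by exact_mod_cast hqΛ
    linarith
  have hdiv : c / ((q:ℝ) + 1) ≤ ε / 4 := by
    rw [div_le_iff₀ (by linarith)]
    rw [div_le_iff₀ hε] at hΛr
    nlinarith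
  have hgy : y - ε / 4 ≤ g * y := by
    by_cases hy0 : y ≤ 0
    · have : y ≤ g * y := by nlinarith
      linarith
    · push Not at hy0
      have h5 : (1 - ((k:ℝ) - 1) / ((q:ℝ) + 1)) * y ≤ g * y :=
        mul_le_mul_of_nonneg_right hber hy0.le
      have h6 : ((k:ℝ) - 1) / ((q:ℝ) + 1) * y ≤ c / ((q:ℝ) + 1) := by
        rw [hc]
        rw [div_mul_eq_mul_div]
        apply div_le_div_of_nonneg_right _ (by linarith)
        apply mul_le_mul_of_nonneg_left hy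
        linarith
      nlinarith
  have h1' : r n - ε / 4 ≤ y := h1
  linarith

end Vale.Agent.Lib.P170S
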