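import Vale.Agent.Lib.P170S.Sum

/-! The clauses falling inside a block: an upper bound by the smaller system. -/

set_option linter.unusedSectionVars false

namespace Vale.Agent.Lib.P170S

open Finset Filter Topology
open Vale.Agent.Lib.P170

open Classical

variable {n₁ n₂ k : ℕ}

/-- Embedding of the literals of the first block. -/
def litEmb1 (n₁ n₂ : ℕ) : Fin n₁ × Bool ↪ Fin (n₁ + n₂) × Bool :=
  ⟨fun l => (Fin.castAdd n₂ l.1, l.2), by
    rintro ⟨i, b⟩ ⟨i', b'⟩ h
    simp only [Prod.mk.injEq, Fin.castAdd_inj] at h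
    rw [h.1, h.2]⟩

lemma mem_map_litEmb1 {c : Finset (Fin n₁ × Bool)} {j : Fin n₁} {b : Bool} :
    (Fin.castAdd n₂ j, b) ∈ c.map (litEmb1 n₁ n₂) ↔ (j, b) ∈ c := by
  constructor
  · intro h
    obtain ⟨⟨i, x⟩, hl, he⟩ := Finset.mem_map.mp h
    have he' : (Fin.castAdd n₂ i, x) = (Fin.castAdd n₂ j, b) := he
    simp only [Prod.mk.injEq, Fin.castAdd_inj] at he'
    rw [← he'.1, ← he'.2]
    exact hl
  · intro h
    exact Finset.mem_map.mpr ⟨(j, b), h, rfl⟩

lemma not_mem_map_litEmb1 {c : Finset (Fin n₁ × Bool)} {j : Fin n₂} {b : Bool} :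
    (Fin.natAdd n₁ j, b) ∉ c.map (litEmb1 n₁ n₂) := by
  intro h
  obtain ⟨⟨i, x⟩, _, he⟩ := Finset.mem_map.mp h
  have he' : (Fin.castAdd n₂ i, x) = (Fin.natAdd n₁ j, b) := he
  simp only [Prod.mk.injEq] at he'
  have h1 := congrArg Fin.val he'.1
  simp only [Fin.val_castAdd, Fin.val_natAdd] at h1
  have := i.2
  omega

/-- A clause of the first block as a clause of the whole system. -/
def emb1 (c : ProperClause n₁ k) : ProperClause (n₁ + n₂) k :=
  ⟨c.1.map (litEmb1 n₁ n₂), by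
    refine ⟨by rw [Finset.card_map]; exact c.2.1, ?_⟩
    intro i
    induction i using Fin.addCases with
    | left j =>
      rw [mem_map_litEmb1, mem_map_litEmb1]
      exact c.2.2 j
    | right j => exact fun h => not_mem_map_litEmb1 h.1⟩

lemma emb1_injective : Function.Injective (emb1 : ProperClause n₁ k → ProperClause (n₁ + n₂) k) := by
  intro c c' h
  apply Subtype.ext
  have h' : c.1.map (litEmb1 n₁ n₂) = c'.1.map (litEmb1 n₁ n₂) := congrArg Subtype.val h
  exact Finset.map_injective _ h'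

lemma solSet_emb1 (c : ProperClause n₁ k) :
    solSet (emb1 c : ProperClause (n₁ + n₂) k) = sol1 n₂ c := by
  ext a
  simp only [solSet, sol1, Finset.mem_filter, Finset.mem_univ, true_and]
  constructor
  · rintro ⟨l, hl, hal⟩
    obtain ⟨⟨i, x⟩, hi, he⟩ := Finset.mem_map.mp hl
    refine ⟨(i, x), hi, ?_⟩
    rw [← he] at hal
    exact hal
  · rintro ⟨⟨i, x⟩, hi, hal⟩
    exact ⟨(Fin.castAdd n₂ i, x), Finset.mem_map.mpr ⟨(i, x), hi, rfl⟩, hal⟩

/-- The fraction of clauses inside the first block. -/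
noncomputable def rho (n₁ n₂ k : ℕ) : ℝ :=
  (Fintype.card (ProperClause n₁ k) : ℝ) / Fintype.card (ProperClause (n₁ + n₂) k)

lemma card_le_card_sum (k : ℕ) :
    Fintype.card (ProperClause n₁ k) ≤ Fintype.card (ProperClause (n₁ + n₂) k) :=
  Fintype.card_le_of_injective _ emb1_injective

lemma rho_nonneg : 0 ≤ rho n₁ n₂ k := by
  unfold rho
  positivity

lemma rho_le_one (_hk : k ≤ n₁) : rho n₁ n₂ k ≤ 1 := by
  unfold rho
  have h : (0:ℝ) < Fintype.card (ProperClause (n₁ + n₂) k) := by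
    exact_mod_cast card_clause_pos (by omega)
  rw [div_le_one h]
  exact_mod_cast card_le_card_sum k

lemma rho_eq (hk : k ≤ n₁) : rho n₁ n₂ k = (n₁.choose k : ℝ) / ((n₁ + n₂).choose k : ℝ) := by
  unfold rho
  rw [card_clause, card_clause]
  push_cast
  have h : (2:ℝ) ^ k ≠ 0 := by positivity
  rw [mul_div_mul_left _ _ h]

/-- One whole clause can only do better than a clause inside the block. -/
lemma op_le_mix_sub (hk : k ≤ n₁) {g : Finset (Fin (n₁ + n₂) → Bool) → ℝ} (hg : MonoFn g)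
    (S : Finset (Fin (n₁ + n₂) → Bool)) :
    op (solSet : ProperClause (n₁ + n₂) k → _) g S
      ≤ mix (rho n₁ n₂ k) (1 - rho n₁ n₂ k) (op (sol1 n₂ : ProperClause n₁ k → _)) id g S := by
  have hc₁ := card_clause_pos hk
  have hcN : 0 < Fintype.card (ProperClause (n₁ + n₂) k) := card_clause_pos (by omega)
  have hc₁' : (0:ℝ) < Fintype.card (ProperClause n₁ k) := by exact_mod_cast hc₁
  have hcN' : (0:ℝ) < Fintype.card (ProperClause (n₁ + n₂) k) := by exact_mod_cast hcN
  rw [op_def]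
  unfold mix
  rw [op_def, rho]
  simp only [id]
  set f : ProperClause (n₁ + n₂) k → ℝ := fun c => g (S ∩ solSet c) with hf
  set I := (univ : Finset (ProperClause n₁ k)).image
    (emb1 : ProperClause n₁ k → ProperClause (n₁ + n₂) k) with hI
  have hsplit : ∑ c, f c = ∑ c ∈ univ \ I, f c + ∑ c ∈ I, f c :=
    (Finset.sum_sdiff (Finset.subset_univ I)).symm
  have himg : ∑ c ∈ I, f c = ∑ c : ProperClause n₁ k, g (S ∩ sol1 n₂ c) := by
    rw [hI, Finset.sum_image (fun x _ y _ h => emb1_injective h)]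
    refine Finset.sum_congr rfl fun c _ => ?_
    simp only [hf, solSet_emb1]
  have hcardI : (I.card : ℝ) = Fintype.card (ProperClause n₁ k) := by
    rw [hI, Finset.card_image_of_injective _ emb1_injective, Finset.card_univ]
  have hrest : ∑ c ∈ univ \ I, f c
      ≤ ((Fintype.card (ProperClause (n₁ + n₂) k) : ℝ) - Fintype.card (ProperClause n₁ k)) * g S := by
    have h1 : ∑ c ∈ univ \ I, f c ≤ ((univ \ I).card : ℝ) * g S := by
      have := Finset.sum_le_card_nsmul (univ \ I) f (g S)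
        (fun c _ => hg _ _ Finset.inter_subset_left)
      simpa [nsmul_eq_mul] using this
    have h2 : ((univ \ I).card : ℝ)
        = (Fintype.card (ProperClause (n₁ + n₂) k) : ℝ) - Fintype.card (ProperClause n₁ k) := by
      rw [Finset.card_sdiff_of_subset (Finset.subset_univ I), Nat.cast_sub (Finset.card_le_card
        (Finset.subset_univ I)), hcardI, Finset.card_univ]
    rw [h2] at h1
    exact h1
  rw [hsplit, himg]
  rw [div_le_iff₀ hcN']
  have e : ((Fintype.card (ProperClause n₁ k) : ℝ) / Fintype.card (ProperClause (n₁ + n₂) k)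
        * ((∑ c : ProperClause n₁ k, g (S ∩ sol1 n₂ c)) / Fintype.card (ProperClause n₁ k))
      + (1 - (Fintype.card (ProperClause n₁ k) : ℝ) / Fintype.card (ProperClause (n₁ + n₂) k))
        * g S) * Fintype.card (ProperClause (n₁ + n₂) k)
      = (∑ c : ProperClause n₁ k, g (S ∩ sol1 n₂ c))
        + ((Fintype.card (ProperClause (n₁ + n₂) k) : ℝ) - Fintype.card (ProperClause n₁ k)) * g S := by
    field_simp
  rw [e]
  linarith

/-- The iterated comparison. -/
lemma iter_le_mix_sub (hk : k ≤ n₁) (m : ℕ) (S : Finset (Fin (n₁ + n₂) → Bool)) :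
    (op (solSet : ProperClause (n₁ + n₂) k → _))^[m] nonemptyInd S
      ≤ (mix (rho n₁ n₂ k) (1 - rho n₁ n₂ k) (op (sol1 n₂ : ProperClause n₁ k → _)) id)^[m]
          nonemptyInd S := by
  have hc₁ := card_clause_pos hk
  have hcN : 0 < Fintype.card (ProperClause (n₁ + n₂) k) := card_clause_pos (by omega)
  have hT : IsMk (mix (rho n₁ n₂ k) (1 - rho n₁ n₂ k)
      (op (sol1 n₂ : ProperClause n₁ k → _)) id) :=
    mix_isMk (op_isMk _ hc₁) IsMk.id rho_nonneg (by linarith [rho_le_one (n₂ := n₂) hk]) (by ring)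
  induction m generalizing S with
  | zero => exact le_rfl
  | succ m ih =>
    rw [Function.iterate_succ_apply', Function.iterate_succ_apply']
    refine (op_le_mix_sub hk (iter_valid _ hcN valid_nonemptyInd m).mono S).trans ?_
    exact hT.mono _ _ ih S

lemma iter_sol1_univ (j : ℕ) :
    (op (sol1 n₂ : ProperClause n₁ k → _))^[j] nonemptyInd (univ : Finset (Fin (n₁ + n₂) → Bool))
      = satProb k n₁ j := by
  have h := iter12_rect (n₁ := n₁) (n₂ := n₂) (k := k) j 0 univ univ
  rw [rect_univ] at h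
  simp only [Function.iterate_zero, id] at h
  rw [h, satProb_eq]
  have : nonemptyInd (univ : Finset (Fin n₂ → Bool)) = 1 := by
    simp [nonemptyInd]
  rw [this, mul_one]

/-- The binomial upper bound. -/
theorem satProb_le_binom (hk : k ≤ n₁) (m : ℕ) :
    satProb k (n₁ + n₂) m
      ≤ ∑ j ∈ range (m + 1), (m.choose j : ℝ) * ((rho n₁ n₂ k) ^ j * (1 - rho n₁ n₂ k) ^ (m - j))
          * satProb k n₁ j := by
  have hc₁ := card_clause_pos hk
  have h1 := iter_le_mix_sub (n₂ := n₂) hk m univ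
  rw [← satProb_eq] at h1
  refine h1.trans (le_of_eq ?_)
  rw [mix_iterate_eq (op_isMk _ hc₁) IsMk.id (fun _ => rfl) rho_nonneg
    (by linarith [rho_le_one (n₂ := n₂) hk]) (by ring)]
  refine Finset.sum_congr rfl fun j _ => ?_
  congr 1
  rw [Function.iterate_id, id, iter_sol1_univ]

/-- Chebyshev form of the upper bound. -/
theorem satProb_le_sub (hk : k ≤ n₁) (m m' : ℕ) {s : ℝ} (hs : 0 < s)
    (hm' : (m':ℝ) + s ≤ m * rho n₁ n₂ k) :
    satProb k (n₁ + n₂) m
      ≤ satProb k n₁ m' + m * rho n₁ n₂ k * (1 - rho n₁ n₂ k) / s ^ 2 := by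
  have hρ1 : rho n₁ n₂ k + (1 - rho n₁ n₂ k) = 1 := by ring
  have hρ0 := rho_nonneg (n₁ := n₁) (n₂ := n₂) (k := k)
  have hρ2 := rho_le_one (n₂ := n₂) hk
  refine (satProb_le_binom hk m).trans ?_
  set ρ := rho n₁ n₂ k with hρ
  have hs2 : 0 < s ^ 2 := by positivity
  have hterm : ∀ j ∈ range (m + 1),
      (m.choose j : ℝ) * (ρ ^ j * (1 - ρ) ^ (m - j)) * satProb k n₁ j
        ≤ (m.choose j : ℝ) * (ρ ^ j * (1 - ρ) ^ (m - j))
          * (satProb k n₁ m' + ((j:ℝ) - m * ρ) ^ 2 / s ^ 2) := by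
    intro j _
    have hρ3 : 0 ≤ 1 - ρ := by linarith
    apply mul_le_mul_of_nonneg_left _ (by positivity)
    by_cases hgood : ((j:ℝ) - m * ρ) ^ 2 ≤ s ^ 2
    · have habs := abs_le_of_sq_le_sq' hgood hs.le
      have hj : m' ≤ j := by
        have : (m':ℝ) ≤ j := by linarith [habs.1]
        exact_mod_cast this
      have h3 : 0 ≤ ((j:ℝ) - m * ρ) ^ 2 / s ^ 2 := by positivity
      linarith [satProb_anti hk hj]
    · push Not at hgood
      have h1 : 1 ≤ ((j:ℝ) - m * ρ) ^ 2 / s ^ 2 := by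
        rw [one_le_div hs2]
        exact hgood.le
      linarith [satProb_le_one hk j, satProb_nonneg hk m']
  refine (Finset.sum_le_sum hterm).trans (le_of_eq ?_)
  have h1 : ∀ j ∈ range (m + 1),
      (m.choose j : ℝ) * (ρ ^ j * (1 - ρ) ^ (m - j))
          * (satProb k n₁ m' + ((j:ℝ) - m * ρ) ^ 2 / s ^ 2)
      = satProb k n₁ m' * ((m.choose j : ℝ) * (ρ ^ j * (1 - ρ) ^ (m - j)))
        + (1 / s ^ 2) * ((m.choose j : ℝ) * (ρ ^ j * (1 - ρ) ^ (m - j)) * ((j:ℝ) - m * ρ) ^ 2) := by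
    intro j _
    field_simp
  rw [Finset.sum_congr rfl h1, Finset.sum_add_distrib, ← Finset.mul_sum, ← Finset.mul_sum,
    binom_sum_one hρ1, binom_var hρ1]
  field_simp

end Vale.Agent.Lib.P170S
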