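import Vale.Agent.Lib.P170S.Interp

/-! Finite size form of the main inequality, and the closure of threshold sequences under sums. -/

set_option linter.unusedSectionVars false

namespace Vale.Agent.Lib.P170S

open Finset Filter Topology
open Vale.Agent.Lib.P170

open Classical

variable {n₁ n₂ k : ℕ}

lemma exists_eta_small (k : ℕ) {x : ℝ} (hx : 0 < x) :
    ∃ B : ℕ, 2 * (k - 1) < B ∧ etaB k B ≤ x := by
  have h1 : Tendsto (fun B : ℕ => (2 * ((k:ℝ) - 1)) / (B:ℝ)) atTop (𝓝 0) :=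
    tendsto_const_div_atTop_nhds_zero_nat _
  have h2 : Tendsto (fun B : ℕ => (1 - (2 * ((k:ℝ) - 1)) / (B:ℝ))⁻¹) atTop (𝓝 ((1 - 0)⁻¹)) :=
    (tendsto_const_nhds.sub h1).inv₀ (by norm_num)
  have h3 : Tendsto (fun B : ℕ => ((1 - (2 * ((k:ℝ) - 1)) / (B:ℝ))⁻¹) ^ k - 1) atTop
      (𝓝 (((1 - 0 : ℝ)⁻¹) ^ k - 1)) := (h2.pow k).sub tendsto_const_nhds
  have h4 : (((1 - 0 : ℝ)⁻¹) ^ k - 1) = 0 := by simp
  rw [h4] at h3
  have h5 := h3.eventually (gt_mem_nhds hx)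
  obtain ⟨B, hB1, hB2⟩ :=
    (h5.and (eventually_gt_atTop (2 * (k - 1) + 1))).exists
  refine ⟨B, by omega, ?_⟩
  have hB0 : (0:ℝ) < B := by
    have : 0 < B := by omega
    exact_mod_cast this
  have e : (B:ℝ) / ((B:ℝ) - 2 * ((k:ℝ) - 1)) = (1 - (2 * ((k:ℝ) - 1)) / (B:ℝ))⁻¹ := by
    rw [← one_div, one_sub_div hB0.ne', one_div_div]
  unfold etaB
  rw [e]
  exact hB1.le

lemma err_X {a b D ε θ μ L : ℝ} (ha0 : 0 < a) (hb0 : 0 < b) (hD0 : 0 < D) (hε : 0 < ε) (hθ : 0 < θ)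
    (hμ : μ = min a b) (hL0 : 0 ≤ L) (hLD : L ≤ D * (a + b)) (hμD : 48 * D / (ε ^ 2 * θ) ≤ μ) :
    L * (a / (a + b) * (b / (a + b))) / (ε / 4 * μ) ^ 2 ≤ θ / 3 := by
  have hμ0 : 0 < μ := by rw [hμ]; exact lt_min ha0 hb0
  have hNpos : 0 < a + b := by positivity
  have hab : a * b / (a + b) ≤ μ := by
    rw [div_le_iff₀ hNpos]
    rcases le_total a b with h | h
    · have : μ = a := by rw [hμ]; exact min_eq_left h
      rw [this]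
      nlinarith
    · have : μ = b := by rw [hμ]; exact min_eq_right h
      rw [this]
      nlinarith
  have h1 : L * (a / (a + b) * (b / (a + b))) ≤ D * μ := by
    calc L * (a / (a + b) * (b / (a + b)))
        ≤ (D * (a + b)) * (a / (a + b) * (b / (a + b))) :=
          mul_le_mul_of_nonneg_right hLD (by positivity)
      _ = D * (a * b / (a + b)) := by field_simp
      _ ≤ D * μ := mul_le_mul_of_nonneg_left hab hD0.le
  rw [div_le_iff₀ (by positivity)]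
  refine h1.trans ?_
  rw [div_le_iff₀ (by positivity)] at hμD
  have : θ / 3 * (ε / 4 * μ) ^ 2 = μ * (μ * (ε ^ 2 * θ)) / 48 := by ring
  rw [this, le_div_iff₀ (by norm_num)]
  nlinarith [mul_le_mul_of_nonneg_left hμD hμ0.le]

lemma err_Y {a b D ε θ η L w : ℝ} (hN : 0 < a + b) (hD0 : 0 < D) (hε : 0 < ε) (hθ : 0 < θ)
    (hη0 : 0 ≤ η) (hη : η ≤ θ * ε / (12 * D)) (hL0 : 0 ≤ L) (hLD : L ≤ D * (a + b))
    (hw0 : 0 < w) (hwge : ε / 4 * (a + b) ≤ w) : η * L / w ≤ θ / 3 := by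
  rw [div_le_iff₀ hw0]
  have h1 : η * L ≤ (θ * ε / (12 * D)) * (D * (a + b)) :=
    mul_le_mul hη hLD hL0 (by positivity)
  have h2 : (θ * ε / (12 * D)) * (D * (a + b)) = θ / 3 * (ε / 4 * (a + b)) := by
    field_simp
    ring
  rw [h2] at h1
  exact h1.trans (mul_le_mul_of_nonneg_left hwge (by positivity))

lemma err_Z {N D θ B L τ : ℝ} (hN : 0 < N) (hD0 : 0 < D) (hθ : 0 < θ) (hL0 : 0 ≤ L)
    (hτ0 : 0 ≤ τ) (hLD : L ≤ D * N) (h1 : τ ≤ (B / (2 * N)) ^ 2)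
    (hNb : 3 * D * B ^ 2 / (4 * θ) ≤ N) : L * τ ≤ θ / 3 := by
  rw [div_le_iff₀ (by positivity)] at hNb
  have h2 : L * τ ≤ (D * N) * (B / (2 * N)) ^ 2 :=
    mul_le_mul hLD h1 hτ0 (by positivity)
  have h3 : (D * N) * (B / (2 * N)) ^ 2 = D * B ^ 2 / (4 * N) := by
    field_simp
    ring
  rw [h3] at h2
  refine h2.trans ?_
  rw [div_le_iff₀ (by positivity)]
  nlinarith

lemma floor_budget {L a b α ε t x : ℝ} (hab : 0 < a + b) (ha0 : 0 ≤ a)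
    (hLle : L ≤ (α + ε / 2) * (a + b)) (ht : t ≤ ε / 4 * a) (ha1 : 1 ≤ ε / 4 * a)
    (hx : (α + ε) * a < x + 1) : L * (a / (a + b)) + t ≤ x := by
  have h1 : L * (a / (a + b)) ≤ (α + ε / 2) * a := by
    calc L * (a / (a + b)) ≤ ((α + ε / 2) * (a + b)) * (a / (a + b)) :=
          mul_le_mul_of_nonneg_right hLle (by positivity)
      _ = (α + ε / 2) * a := by field_simp
  nlinarith

/-- The finite size form of the main inequality. -/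
theorem finite_size (hk : 2 ≤ k) {R ε θ : ℝ} (hR : 0 < R) (hε : 0 < ε) (hθ : 0 < θ) :
    ∃ n₀ : ℕ, ∀ n₁ n₂ : ℕ, n₀ ≤ n₁ → n₀ ≤ n₂ → ∀ α : ℝ, 0 ≤ α → α ≤ R →
      satProb k n₁ ⌊(α + ε) * n₁⌋₊ * satProb k n₂ ⌊(α + ε) * n₂⌋₊ - θ
        ≤ satProb k (n₁ + n₂) ⌊α * ((n₁ + n₂ : ℕ) : ℝ)⌋₊ := by
  have hk1 : 1 ≤ k := by omega
  set D : ℝ := R + ε with hD
  have hD0 : 0 < D := by positivity
  obtain ⟨B, hB, hη⟩ := exists_eta_small k (x := θ * ε / (12 * D)) (by positivity)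
  refine ⟨max (max k 1) (max ⌈4 / ε⌉₊ (max ⌈48 * D / (ε ^ 2 * θ)⌉₊
    (max B ⌈3 * D * (B:ℝ) ^ 2 / (4 * θ)⌉₊))), ?_⟩
  intro n₁ n₂ h₁ h₂ α hα0 hαR
  simp only [max_le_iff] at h₁ h₂
  obtain ⟨⟨hk₁, hn₁⟩, h₁a, h₁b, h₁c, h₁d⟩ := h₁
  obtain ⟨⟨hk₂, hn₂⟩, h₂a, h₂b, h₂c, h₂d⟩ := h₂
  have ha0 : (0:ℝ) < n₁ := by exact_mod_cast (by omega : 0 < n₁)
  have hb0 : (0:ℝ) < n₂ := by exact_mod_cast (by omega : 0 < n₂)
  set a : ℝ := (n₁:ℝ) with ha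
  set b : ℝ := (n₂:ℝ) with hb
  have hN : ((n₁ + n₂ : ℕ) : ℝ) = a + b := by push_cast; rfl
  have hNpos : 0 < a + b := by positivity
  have ha1 : 1 ≤ ε / 4 * a := by
    have : 4 / ε ≤ a := (Nat.le_ceil _).trans (Nat.cast_le.mpr h₁a)
    rw [div_le_iff₀ hε] at this
    linarith
  have hb1 : 1 ≤ ε / 4 * b := by
    have : 4 / ε ≤ b := (Nat.le_ceil _).trans (Nat.cast_le.mpr h₂a)
    rw [div_le_iff₀ hε] at this
    linarith
  set m := ⌊α * ((n₁ + n₂ : ℕ) : ℝ)⌋₊ with hm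
  set w := ⌈ε / 4 * ((n₁ + n₂ : ℕ) : ℝ)⌉₊ with hw
  have hmle : (m:ℝ) ≤ α * (a + b) := by
    rw [← hN]
    exact Nat.floor_le (by rw [hN]; positivity)
  have hwge : ε / 4 * (a + b) ≤ w := by
    rw [← hN]
    exact Nat.le_ceil _
  have hwlt : (w:ℝ) < ε / 4 * (a + b) + 1 := by
    rw [← hN]
    exact Nat.ceil_lt_add_one (by rw [hN]; positivity)
  have hw0 : 0 < w := by
    have : (0:ℝ) < w := lt_of_lt_of_le (by positivity) hwge
    exact_mod_cast this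
  set L : ℕ := m + w with hL
  have hLle : (L:ℝ) ≤ (α + ε / 2) * (a + b) := by
    rw [hL]
    push_cast
    nlinarith
  have hLD : (L:ℝ) ≤ D * (a + b) := by
    refine hLle.trans (mul_le_mul_of_nonneg_right ?_ hNpos.le)
    rw [hD]
    linarith
  set μ : ℝ := min a b with hμ
  have hμ0 : 0 < μ := lt_min ha0 hb0
  have hμa : μ ≤ a := min_le_left _ _
  have hμb : μ ≤ b := min_le_right _ _
  set t : ℝ := ε / 4 * μ with ht
  have ht0 : 0 < t := by positivity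
  have hwt₁ : wt₁ n₁ n₂ = a / (a + b) := rfl
  have hwt₂ : wt₂ n₁ n₂ = b / (a + b) := rfl
  have hfl₁ : (L:ℝ) * wt₁ n₁ n₂ + t ≤ (⌊(α + ε) * n₁⌋₊ : ℝ) := by
    rw [hwt₁]
    exact floor_budget hNpos ha0.le hLle (mul_le_mul_of_nonneg_left hμa (by positivity)) ha1
      (Nat.lt_floor_add_one ((α + ε) * n₁))
  have hfl₂ : (L:ℝ) * wt₂ n₁ n₂ + t ≤ (⌊(α + ε) * n₂⌋₊ : ℝ) := by
    rw [hwt₂]
    have hLle' : (L:ℝ) ≤ (α + ε / 2) * (b + a) := by rw [add_comm b a]; exact hLle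
    have h := floor_budget (a := b) (b := a) (by linarith) hb0.le hLle'
      (mul_le_mul_of_nonneg_left hμb (by positivity)) hb1
      (Nat.lt_floor_add_one ((α + ε) * n₂))
    rwa [add_comm b a] at h
  have hmain := main_ineq hk1 hk₁ hk₂ hB m w _ _ hw0 ht0 hfl₁ hfl₂
  rw [← hL] at hmain
  set A := satProb k n₁ ⌊(α + ε) * n₁⌋₊ * satProb k n₂ ⌊(α + ε) * n₂⌋₊ with hA
  have hA0 : 0 ≤ A := mul_nonneg (satProb_nonneg hk₁ _) (satProb_nonneg hk₂ _)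
  have hA1 : A ≤ 1 := by
    have h1 := satProb_le_one hk₁ ⌊(α + ε) * n₁⌋₊
    have h2 := satProb_le_one hk₂ ⌊(α + ε) * n₂⌋₊
    have h3 := satProb_nonneg hk₂ ⌊(α + ε) * n₂⌋₊
    calc A ≤ 1 * 1 := mul_le_mul h1 h2 h3 (by norm_num)
      _ = 1 := by norm_num
  -- the three error terms
  have hμD : 48 * D / (ε ^ 2 * θ) ≤ μ := by
    apply le_min
    · exact (Nat.le_ceil _).trans (Nat.cast_le.mpr h₁b)
    · exact (Nat.le_ceil _).trans (Nat.cast_le.mpr h₂b)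
  have hX : (L:ℝ) * (wt₁ n₁ n₂ * wt₂ n₁ n₂) / t ^ 2 ≤ θ / 3 := by
    rw [hwt₁, hwt₂, ht]
    exact err_X ha0 hb0 hD0 hε hθ hμ (Nat.cast_nonneg L) hLD hμD
  have hY : etaB k B * (L:ℝ) / w ≤ θ / 3 :=
    err_Y hNpos hD0 hε hθ (etaB_nonneg hk1 hB) hη (Nat.cast_nonneg L) hLD
      (by exact_mod_cast hw0) hwge
  have hZ : (L:ℝ) * tauB k B (n₁ + n₂) ≤ θ / 3 := by
    have hBN : (B:ℝ) ≤ a := Nat.cast_le.mpr h₁c
    have hBab : (B:ℝ) ≤ a + b := by linarith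
    have hbase0 : (0:ℝ) ≤ (B:ℝ) / (2 * ((n₁ + n₂ : ℕ) : ℝ)) := by positivity
    have hbase1 : (B:ℝ) / (2 * ((n₁ + n₂ : ℕ) : ℝ)) ≤ 1 := by
      rw [hN, div_le_one (by positivity)]
      linarith
    have h1 : tauB k B (n₁ + n₂) ≤ ((B:ℝ) / (2 * ((n₁ + n₂ : ℕ) : ℝ))) ^ 2 := by
      unfold tauB
      exact pow_le_pow_of_le_one hbase0 hbase1 hk
    rw [hN] at h1
    have hNb : 3 * D * (B:ℝ) ^ 2 / (4 * θ) ≤ a + b := by
      have : 3 * D * (B:ℝ) ^ 2 / (4 * θ) ≤ a := (Nat.le_ceil _).trans (Nat.cast_le.mpr h₁d)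
      linarith
    exact err_Z hNpos hD0 hθ (Nat.cast_nonneg L) (tauB_nonneg _ _ _) hLD h1 hNb
  have hX0 : 0 ≤ (L:ℝ) * (wt₁ n₁ n₂ * wt₂ n₁ n₂) / t ^ 2 := by
    unfold wt₁ wt₂
    positivity
  nlinarith

/-- Threshold sequences satisfy `r (n₁ + n₂) ≥ min (r n₁) (r n₂) - o(1)`. -/
theorem sum_closure (hk : 2 ≤ k) {r : ℕ → ℝ} (hr : IsThresholdSeq k r) {ε : ℝ} (hε : 0 < ε) :
    ∃ n₀ : ℕ, ∀ n₁ n₂ : ℕ, n₀ ≤ n₁ → n₀ ≤ n₂ → min (r n₁) (r n₂) - ε ≤ r (n₁ + n₂) := by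
  have hk1 : 1 ≤ k := by omega
  obtain ⟨R, hR0, hR⟩ := threshold_bounded hk1 hr
  set ε₀ := ε / 4 with hε₀
  have hε₀0 : 0 < ε₀ := by positivity
  obtain ⟨hlow, hupp⟩ := hr ε₀ hε₀0
  have h1 : ∀ᶠ n : ℕ in atTop, (3 / 4 : ℝ) < satProb k n ⌊(r n - ε₀) * n⌋₊ :=
    hlow.eventually (lt_mem_nhds (by norm_num))
  have h2 : ∀ᶠ n : ℕ in atTop, satProb k n ⌊(r n + ε₀) * n⌋₊ < (1 / 8 : ℝ) :=
    hupp.eventually (gt_mem_nhds (by norm_num))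
  obtain ⟨n₀', hn₀'⟩ := eventually_atTop.mp
    (h1.and (h2.and (hR.and (eventually_ge_atTop (max k 1)))))
  obtain ⟨n₀'', hn₀''⟩ := finite_size hk (R := R + ε₀) (ε := 2 * ε₀) (θ := 1 / 8)
    (by positivity) (by positivity) (by norm_num)
  refine ⟨max n₀' n₀'', ?_⟩
  intro n₁ n₂ hn₁ hn₂
  have hn₁' := le_trans (le_max_left _ _) hn₁
  have hn₂' := le_trans (le_max_left _ _) hn₂
  have hn₁'' := le_trans (le_max_right _ _) hn₁
  have hn₂'' := le_trans (le_max_right _ _) hn₂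
  obtain ⟨a1, a2, a3, a4⟩ := hn₀' n₁ hn₁'
  obtain ⟨b1, b2, b3, b4⟩ := hn₀' n₂ hn₂'
  obtain ⟨c1, c2, c3, c4⟩ := hn₀' (n₁ + n₂) (by omega)
  simp only [max_le_iff] at a4 b4 c4
  by_contra hcon
  push Not at hcon
  set β := min (r n₁) (r n₂) with hβ
  have hβ₁ : β ≤ r n₁ := min_le_left _ _
  have hβ₂ : β ≤ r n₂ := min_le_right _ _
  set N := n₁ + n₂ with hN
  have hNpos : (0:ℝ) < N := by
    have : 0 < N := by omega
    exact_mod_cast this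
  set α := r N + ε₀ with hα
  have hα0 : 0 ≤ α := by
    by_contra hneg
    push Not at hneg
    have : ⌊α * N⌋₊ = 0 := Nat.floor_of_nonpos (mul_nonpos_of_nonpos_of_nonneg hneg.le hNpos.le)
    rw [this, satProb_zero] at c2
    norm_num at c2
  have hαR : α ≤ R + ε₀ := by rw [hα]; linarith
  have hmain := hn₀'' n₁ n₂ hn₁'' hn₂'' α hα0 hαR
  rw [← hN] at hmain
  have hf : ∀ n : ℕ, β ≤ r n → k ≤ n → (3 / 4 : ℝ) < satProb k n ⌊(r n - ε₀) * n⌋₊ →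
      (3 / 4 : ℝ) < satProb k n ⌊(α + 2 * ε₀) * n⌋₊ := by
    intro n hn hkn hP
    refine lt_of_lt_of_le hP (satProb_anti hkn (Nat.floor_le_floor ?_))
    apply mul_le_mul_of_nonneg_right _ (by positivity)
    rw [hα]
    have : ε = 4 * ε₀ := by rw [hε₀]; ring
    linarith
  have p1 := hf n₁ hβ₁ a4.1 a1
  have p2 := hf n₂ hβ₂ b4.1 b1
  have : (3 / 4 : ℝ) * (3 / 4) ≤ satProb k n₁ ⌊(α + 2 * ε₀) * n₁⌋₊
      * satProb k n₂ ⌊(α + 2 * ε₀) * n₂⌋₊ :=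
    mul_le_mul p1.le p2.le (by norm_num) (satProb_nonneg a4.1 _)
  rw [hα] at hmain this
  have c2' : satProb k N ⌊(r N + ε₀) * (N:ℝ)⌋₊ < 1 / 8 := c2
  linarith

/-- The `K`-fold form. -/
theorem mult_closure (hk : 2 ≤ k) {r : ℕ → ℝ} (hr : IsThresholdSeq k r) (K : ℕ) :
    ∀ {ε : ℝ}, 0 < ε → ∃ n₀ : ℕ, ∀ n : ℕ, n₀ ≤ n → r n - ε ≤ r ((K + 1) * n) := by
  induction K with
  | zero =>
    intro ε hε
    refine ⟨0, fun n _ => ?_⟩
    simp only [zero_add, one_mul]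
    linarith
  | succ K ih =>
    intro ε hε
    obtain ⟨n₁, hn₁⟩ := ih (ε := ε / 2) (by positivity)
    obtain ⟨n₂, hn₂⟩ := sum_closure hk hr (ε := ε / 2) (by positivity)
    refine ⟨max n₁ n₂, fun n hn => ?_⟩
    have h1 := hn₁ n (le_trans (le_max_left _ _) hn)
    have hle : n ≤ (K + 1) * n := Nat.le_mul_of_pos_left n (by omega)
    have hn' : n₂ ≤ n := le_trans (le_max_right _ _) hn
    have h2 := hn₂ ((K + 1) * n) n (hn'.trans hle) hn'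
    have e : (K + 1 + 1) * n = (K + 1) * n + n := by ring
    rw [e]
    have h3 : min (r ((K + 1) * n)) (r n) ≥ r n - ε / 2 := by
      apply le_min h1
      linarith
    linarith

end Vale.Agent.Lib.P170S
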